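import Vale.Agent.P242.H363.RadEst

/-! P242, package A-RAD, file 4: the fixed radial profile `ψ` (1 on `(-∞,1]`, 0 on `[2,∞)`),
its primitive `Ξ` with `Ξ' = -ψ`, and the radial weights `ψ(b'/r²)`, `r² Ξ(b'/r²)` with
`b' = b + c₀`. -/

set_option linter.all false

open MeasureTheory Filter Topology Set
open scoped ENNReal NNReal

namespace Vale.Agent.P242.H363

open Vale.Agent.P233

/-- the profile -/
noncomputable def psi (s : ℝ) : ℝ := Real.smoothTransition (2 - s)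

theorem psi_contDiff : ContDiff ℝ ((⊤ : ℕ∞) : WithTop ℕ∞) psi :=
  Real.smoothTransition.contDiff.comp (contDiff_const.sub contDiff_id)

theorem psi_one {s : ℝ} (h : s ≤ 1) : psi s = 1 :=
  Real.smoothTransition.one_of_one_le (by linarith)

theorem psi_zero {s : ℝ} (h : 2 ≤ s) : psi s = 0 :=
  Real.smoothTransition.zero_of_nonpos (by linarith)

theorem psi_nonneg (s : ℝ) : 0 ≤ psi s := Real.smoothTransition.nonneg _

theorem psi_le_one (s : ℝ) : psi s ≤ 1 := Real.smoothTransition.le_one _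

noncomputable def psi1 : ℝ → ℝ := deriv psi
noncomputable def psi2 : ℝ → ℝ := deriv psi1
noncomputable def psi3 : ℝ → ℝ := deriv psi2

theorem psi1_contDiff : ContDiff ℝ ((⊤ : ℕ∞) : WithTop ℕ∞) psi1 := (contDiff_infty_iff_deriv.1 psi_contDiff).2
theorem psi2_contDiff : ContDiff ℝ ((⊤ : ℕ∞) : WithTop ℕ∞) psi2 := (contDiff_infty_iff_deriv.1 psi1_contDiff).2
theorem psi3_contDiff : ContDiff ℝ ((⊤ : ℕ∞) : WithTop ℕ∞) psi3 := (contDiff_infty_iff_deriv.1 psi2_contDiff).2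

theorem psi_hd (s : ℝ) : HasDerivAt psi (psi1 s) s :=
  (psi_contDiff.differentiable (by simp) s).hasDerivAt
theorem psi1_hd (s : ℝ) : HasDerivAt psi1 (psi2 s) s :=
  (psi1_contDiff.differentiable (by simp) s).hasDerivAt
theorem psi2_hd (s : ℝ) : HasDerivAt psi2 (psi3 s) s :=
  (psi2_contDiff.differentiable (by simp) s).hasDerivAt

theorem deriv_zero_of_gt {f : ℝ → ℝ} (hf : ∀ s, 2 < s → f s = 0) {s : ℝ} (h : 2 < s) :
    deriv f s = 0 := by
  have h1 : f =ᶠ[𝓝 s] fun _ => (0 : ℝ) := by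
    filter_upwards [lt_mem_nhds h] with t ht
    exact hf t ht
  rw [h1.deriv_eq]
  simp

theorem psi1_zero {s : ℝ} (h : 2 ≤ s) : psi1 s = 0 := by
  have h1 : ∀ s, 2 < s → psi1 s = 0 := fun s hs => deriv_zero_of_gt (fun t ht => psi_zero ht.le) hs
  rcases h.eq_or_lt with h | h
  · rw [← h]
    have h2 : Tendsto psi1 (𝓝[>] 2) (𝓝 (psi1 2)) :=
      (psi1_contDiff.continuous.tendsto 2).mono_left nhdsWithin_le_nhds
    refine tendsto_nhds_unique h2 (tendsto_const_nhds.congr' ?_)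
    filter_upwards [self_mem_nhdsWithin] with t ht
    rw [h1 t ht]
  · exact h1 s h

theorem psi2_zero {s : ℝ} (h : 2 ≤ s) : psi2 s = 0 := by
  have h1 : ∀ s, 2 < s → psi2 s = 0 := fun s hs =>
    deriv_zero_of_gt (fun t ht => psi1_zero ht.le) hs
  rcases h.eq_or_lt with h | h
  · rw [← h]
    have h2 : Tendsto psi2 (𝓝[>] 2) (𝓝 (psi2 2)) :=
      (psi2_contDiff.continuous.tendsto 2).mono_left nhdsWithin_le_nhds
    refine tendsto_nhds_unique h2 (tendsto_const_nhds.congr' ?_)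
    filter_upwards [self_mem_nhdsWithin] with t ht
    rw [h1 t ht]
  · exact h1 s h

/-- the primitive, `Ξ' = -ψ`, `Ξ = 0` on `[2,∞)` -/
noncomputable def Xi (s : ℝ) : ℝ := ∫ t in s..2, psi t

theorem Xi_hd (s : ℝ) : HasDerivAt Xi (-psi s) s :=
  intervalIntegral.integral_hasDerivAt_left (psi_contDiff.continuous.intervalIntegrable _ _)
    (psi_contDiff.continuous.stronglyMeasurableAtFilter _ _)
    psi_contDiff.continuous.continuousAt

theorem Xi_zero {s : ℝ} (h : 2 ≤ s) : Xi s = 0 := by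
  unfold Xi
  rw [intervalIntegral.integral_symm, intervalIntegral.integral_congr (g := fun _ => (0 : ℝ))]
  · simp
  · intro t ht
    rw [uIcc_of_le h] at ht
    exact psi_zero ht.1

theorem Xi_antitone : Antitone Xi := by
  refine antitone_of_deriv_nonpos (fun s => (Xi_hd s).differentiableAt) fun s => ?_
  rw [(Xi_hd s).deriv]
  linarith [psi_nonneg s]

theorem Xi_nonneg (s : ℝ) : 0 ≤ Xi s := by
  rcases le_or_gt 2 s with h | h
  · rw [Xi_zero h]
  · rw [← Xi_zero le_rfl]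
    exact Xi_antitone h.le

theorem Xi_continuous : Continuous Xi :=
  continuous_iff_continuousAt.2 fun s => (Xi_hd s).continuousAt

/-- `Ξ(1) > 0` -/
theorem Xi_one_pos : 0 < Xi 1 := by
  have h1 : 0 < ∫ t in (1 : ℝ)..2, psi t := by
    refine intervalIntegral.intervalIntegral_pos_of_pos_on
      (psi_contDiff.continuous.intervalIntegrable _ _) (fun t ht => ?_) (by norm_num)
    exact Real.smoothTransition.pos_of_pos (by linarith [ht.2])
  exact h1

theorem Xi_ge {s : ℝ} (h : s ≤ 1) : Xi 1 ≤ Xi s := Xi_antitone h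

theorem Xi_le {s : ℝ} : Xi s ≤ |2 - s| := by
  rcases le_or_gt 2 s with h | h
  · rw [Xi_zero h]; exact abs_nonneg _
  · unfold Xi
    have h1 : ∫ t in s..2, psi t ≤ ∫ t in s..2, (1 : ℝ) :=
      intervalIntegral.integral_mono_on h.le (psi_contDiff.continuous.intervalIntegrable _ _)
        (by simp) fun t _ => psi_le_one t
    refine h1.trans ?_
    rw [intervalIntegral.integral_const, smul_eq_mul, mul_one]
    exact le_abs_self _

/-- a common bound of `ψ, ψ', ψ''` and `Ξ` on `[-N, ∞)` -/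
theorem exists_psi_bound (N : ℝ) (hN : 0 ≤ N) : ∃ A : ℝ, 1 ≤ A ∧ ∀ s, -N ≤ s →
    |psi s| ≤ A ∧ |psi1 s| ≤ A ∧ |psi2 s| ≤ A ∧ |Xi s| ≤ A := by
  obtain ⟨A1, h1⟩ := (isCompact_Icc (a := -N) (b := 2)).exists_bound_of_continuousOn
    psi1_contDiff.continuous.continuousOn
  obtain ⟨A2, h2⟩ := (isCompact_Icc (a := -N) (b := 2)).exists_bound_of_continuousOn
    psi2_contDiff.continuous.continuousOn
  have a1 := abs_nonneg A1
  have a2 := abs_nonneg A2
  refine ⟨1 + |A1| + |A2| + (2 + N), by linarith, fun s hs => ?_⟩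
  refine ⟨?_, ?_, ?_, ?_⟩
  · rw [abs_of_nonneg (psi_nonneg s)]
    linarith [psi_le_one s]
  · rcases le_or_gt 2 s with h | h
    · rw [psi1_zero h, abs_zero]; linarith
    · have := h1 s ⟨hs, h.le⟩
      rw [Real.norm_eq_abs] at this
      linarith [le_abs_self A1]
  · rcases le_or_gt 2 s with h | h
    · rw [psi2_zero h, abs_zero]; linarith
    · have := h2 s ⟨hs, h.le⟩
      rw [Real.norm_eq_abs] at this
      linarith [le_abs_self A2]
  · rw [abs_of_nonneg (Xi_nonneg s)]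
    rcases le_or_gt 2 s with h | h
    · rw [Xi_zero h]; linarith
    · have := Xi_le (s := s)
      rw [abs_of_pos (by linarith)] at this
      linarith

section weights
variable {M : Type*} [MeasurableSpace M] {m : Measure M} {C : Calc m}

/-- the radial weights at scale `r` exist, with all the properties used in `RadEst` -/
theorem exists_weights (hC : IsDir C) {b w : M →ₘ[m] ℝ} {c0 r N A a : ℝ} (hb : b ∈ C.A)
    (hr : 0 < r) (hc0 : 2 * r ^ 2 < c0) (hA1 : 1 ≤ A)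
    (hA : ∀ s, -N ≤ s → |psi s| ≤ A ∧ |psi1 s| ≤ A ∧ |psi2 s| ≤ A ∧ |Xi s| ≤ A)
    (hlow : ∀ᵐ x ∂m, -N * r ^ 2 ≤ b x + c0)
    (hw0 : ∀ᵐ x ∂m, 0 ≤ w x) (hw1 : MemLp w 1 m) (ha : 0 ≤ a)
    (hw : ∀ᵐ x ∂m, b x + c0 < 2 * r ^ 2 → 1 ≤ a * w x) :
    ∃ P0 P1 P2 X0 : M →ₘ[m] ℝ, RP C b P0 P1 P2 ∧ X0 ∈ C.A ∧
      (∀ h ∈ C.W, C.Γ X0 h = -(P0 * C.Γ b h)) ∧
      WB P0 P1 P2 w (A * a) r ∧ (∀ᵐ x ∂m, |X0 x| ≤ A * a * r ^ 2 * w x) ∧
      (∀ᵐ x ∂m, P0 x = psi ((b x + c0) / r ^ 2) ∧ X0 x = r ^ 2 * Xi ((b x + c0) / r ^ 2)) ∧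
      (∀ᵐ x ∂m, 0 ≤ P0 x ∧ P0 x ≤ 1 ∧ 0 ≤ X0 x ∧ (b x + c0 ≤ r ^ 2 → P0 x = 1) ∧
        (b x + c0 ≤ r ^ 2 → Xi 1 * r ^ 2 ≤ X0 x)) ∧
      (∀ᵐ x ∂m, P0 x ≠ 0 ∨ P1 x ≠ 0 ∨ P2 x ≠ 0 ∨ X0 x ≠ 0 → b x + c0 < 2 * r ^ 2) := by
  have hr2 : 0 < r ^ 2 := by positivity
  have hq : ∀ t : ℝ, HasDerivAt (fun t : ℝ => t / r ^ 2) (1 / r ^ 2) t := fun t =>
    (hasDerivAt_id t).div_const _
  have h0 : ∀ t, HasDerivAt (fun t : ℝ => psi (t / r ^ 2)) (psi1 (t / r ^ 2) / r ^ 2) t := by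
    intro t
    have := (psi_hd (t / r ^ 2)).comp t (hq t)
    refine this.congr_deriv ?_
    ring
  have h1 : ∀ t, HasDerivAt (fun t : ℝ => psi1 (t / r ^ 2) / r ^ 2)
      (psi2 (t / r ^ 2) / r ^ 4) t := by
    intro t
    have := ((psi1_hd (t / r ^ 2)).comp t (hq t)).div_const (r ^ 2)
    refine this.congr_deriv ?_
    field_simp
  have h2 : ∀ t, HasDerivAt (fun t : ℝ => psi2 (t / r ^ 2) / r ^ 4)
      (psi3 (t / r ^ 2) / r ^ 6) t := by
    intro t
    have := ((psi2_hd (t / r ^ 2)).comp t (hq t)).div_const (r ^ 4)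
    refine this.congr_deriv ?_
    field_simp
  have hX : ∀ t, HasDerivAt (fun t : ℝ => r ^ 2 * Xi (t / r ^ 2)) (-psi (t / r ^ 2)) t := by
    intro t
    have := ((Xi_hd (t / r ^ 2)).comp t (hq t)).const_mul (r ^ 2)
    refine this.congr_deriv ?_
    field_simp
  have cd : Continuous fun t : ℝ => t / r ^ 2 := continuous_id.div_const _
  have c0' := psi_contDiff.continuous.comp cd
  have c1 : Continuous fun t : ℝ => psi1 (t / r ^ 2) / r ^ 2 :=
    (psi1_contDiff.continuous.comp cd).div_const _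
  have c2 : Continuous fun t : ℝ => psi2 (t / r ^ 2) / r ^ 4 :=
    (psi2_contDiff.continuous.comp cd).div_const _
  have c3 : Continuous fun t : ℝ => psi3 (t / r ^ 2) / r ^ 6 :=
    (psi3_contDiff.continuous.comp cd).div_const _
  have cX : Continuous fun t : ℝ => r ^ 2 * Xi (t / r ^ 2) :=
    continuous_const.mul (Xi_continuous.comp cd)
  have hc : 2 ≤ c0 / r ^ 2 := by rw [le_div_iff₀ hr2]; linarith
  obtain ⟨P0, p0⟩ := Cm.ex (φ := fun t : ℝ => psi (t / r ^ 2)) b c0 c0'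
  obtain ⟨P1, p1⟩ := Cm.ex (φ := fun t : ℝ => psi1 (t / r ^ 2) / r ^ 2) b c0 c1
  obtain ⟨P2, p2⟩ := Cm.ex (φ := fun t : ℝ => psi2 (t / r ^ 2) / r ^ 4) b c0 c2
  obtain ⟨X0, pX⟩ := Cm.ex (φ := fun t : ℝ => r ^ 2 * Xi (t / r ^ 2)) b c0 cX
  have pn : Cm b c0 (fun t : ℝ => -psi (t / r ^ 2)) (-P0) := by
    filter_upwards [p0, neg_ae P0] with x g1 g2
    rw [g2, g1]
  have hRP : RP C b P0 P1 P2 := RP.of hC hb h0 h1 h2 c3 (psi_zero hc)
    (by rw [psi1_zero hc, zero_div]) (by rw [psi2_zero hc, zero_div])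
    p0 p1 p2
  obtain ⟨XA, XΓ⟩ := Cm.memA hC hb hX c0'.neg (by rw [Xi_zero hc, mul_zero]) pX pn
  have key : ∀ᵐ x ∂m, ∀ {z k : ℝ}, 0 ≤ k → (2 * r ^ 2 ≤ b x + c0 → z = 0) → |z| ≤ A * k →
      |z| ≤ A * a * k * w x := by
    filter_upwards [hw, hw0] with x g1 g2 z k hk hz hz'
    rcases le_or_gt (2 * r ^ 2) (b x + c0) with h | h
    · rw [hz h, abs_zero]
      positivity
    · calc |z| ≤ A * k * 1 := by rw [mul_one]; exact hz'
        _ ≤ A * k * (a * w x) := mul_le_mul_of_nonneg_left (g1 h) (by positivity)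
        _ = A * a * k * w x := by ring
  have big : ∀ {y : ℝ}, 2 * r ^ 2 ≤ y → 2 ≤ y / r ^ 2 := fun h => by
    rw [le_div_iff₀ hr2]; exact h
  have sm : ∀ {y : ℝ}, -N * r ^ 2 ≤ y → -N ≤ y / r ^ 2 := fun h => by
    rw [le_div_iff₀ hr2]; exact h
  refine ⟨P0, P1, P2, X0, hRP, XA, ?_, ⟨by positivity, hr, hw0, hw1, ?_, ?_, ?_⟩, ?_, ?_, ?_, ?_⟩
  · intro h hh
    rw [XΓ h hh, neg_mul]
  · filter_upwards [key, p0, hlow] with x g1 g2 g3
    have := g1 (z := P0 x) (k := 1) zero_le_one (fun h => by rw [g2]; exact psi_zero (big h))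
      (by rw [g2, mul_one]; exact (hA _ (sm g3)).1)
    rwa [mul_one] at this
  · filter_upwards [key, p1, hlow] with x g1 g2 g3
    have := g1 (z := P1 x) (k := 1 / r ^ 2) (by positivity)
      (fun h => by rw [g2, psi1_zero (big h), zero_div])
      (by rw [g2, abs_div, abs_of_pos hr2, mul_one_div]
          exact div_le_div_of_nonneg_right (hA _ (sm g3)).2.1 hr2.le)
    refine this.trans (le_of_eq ?_)
    ring
  · filter_upwards [key, p2, hlow] with x g1 g2 g3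
    have hr4 : 0 < r ^ 4 := by positivity
    have := g1 (z := P2 x) (k := 1 / r ^ 4) (by positivity)
      (fun h => by rw [g2, psi2_zero (big h), zero_div])
      (by rw [g2, abs_div, abs_of_pos hr4, mul_one_div]
          exact div_le_div_of_nonneg_right (hA _ (sm g3)).2.2.1 hr4.le)
    refine this.trans (le_of_eq ?_)
    ring
  · filter_upwards [key, pX, hlow] with x g1 g2 g3
    have := g1 (z := X0 x) (k := r ^ 2) (by positivity)
      (fun h => by rw [g2, Xi_zero (big h), mul_zero])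
      (by rw [g2, abs_mul, abs_of_pos hr2, mul_comm]
          exact mul_le_mul_of_nonneg_right (hA _ (sm g3)).2.2.2 hr2.le)
    exact this
  · filter_upwards [p0, pX] with x g1 g2
    exact ⟨g1, g2⟩
  · filter_upwards [p0, pX] with x g1 g2
    refine ⟨by rw [g1]; exact psi_nonneg _, by rw [g1]; exact psi_le_one _, ?_, fun h => ?_,
      fun h => ?_⟩
    · rw [g2]; exact mul_nonneg hr2.le (Xi_nonneg _)
    · rw [g1]; exact psi_one (by rw [div_le_one hr2]; exact h)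
    · rw [g2, mul_comm]
      exact mul_le_mul_of_nonneg_left (Xi_ge (by rw [div_le_one hr2]; exact h)) hr2.le
  · filter_upwards [p0, p1, p2, pX] with x g1 g2 g3 g4 h
    by_contra hcon
    have hb2 := big (not_lt.1 hcon)
    rcases h with h | h | h | h
    · exact h (by rw [g1]; exact psi_zero hb2)
    · exact h (by rw [g2, psi1_zero hb2, zero_div])
    · exact h (by rw [g3, psi2_zero hb2, zero_div])
    · exact h (by rw [g4, Xi_zero hb2, mul_zero])

end weights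

end Vale.Agent.P242.H363
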