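import Vale.Agent.P233.H53.Stat

/-! P242, package A-RAD, file 1: the weak form of `Γ₂ - K Γ - (1/n) Δ Δ` as a bilinear form with
nonnegative weights. No kernel. -/

set_option linter.all false

open MeasureTheory Filter Topology Set
open scoped ENNReal NNReal

namespace Vale.Agent.P242.H363

open Vale.Agent.P233

variable {M : Type*} [MeasurableSpace M] {m : Measure M} {C : Calc m}

/-- weak form of `Γ₂(f,g) - K Γ(f,g) - (1/n) Δf Δg` tested with `z` -/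
noncomputable def QQ (C : Calc m) (K n : ℝ) (f g z : M →ₘ[m] ℝ) : ℝ :=
  C.NN K f g z - n⁻¹ * I (z * (C.lap f * C.lap g))

section alg
variable (hC : IsGamma C) {K n : ℝ}
variable {f g h z w : M →ₘ[m] ℝ}
include hC

theorem lap_int (hf : f ∈ C.Test) (hg : g ∈ C.Test) (hz : z ∈ C.A) :
    MemLp (z * (C.lap f * C.lap g) : M →ₘ[m] ℝ) 1 m :=
  mem_mul_top hz.2 (mem_mul_22 (hC.test_isLap hf).2.1 (hC.test_isLap hg).2.1)

variable (hB : C.BEi K)
include hB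

theorem QQ_symm (hf : f ∈ C.Test) (hg : g ∈ C.Test) : QQ C K n f g z = QQ C K n g f z := by
  unfold QQ
  rw [hC.NN_symm hB hf hg, mul_comm (C.lap f)]

theorem QQ_add_left (hf : f ∈ C.Test) (hg : g ∈ C.Test) (hh : h ∈ C.Test) (hz : z ∈ C.A) :
    QQ C K n (f + g) h z = QQ C K n f h z + QQ C K n g h z := by
  unfold QQ
  have e : z * (C.lap (f + g) * C.lap h) = z * (C.lap f * C.lap h) + z * (C.lap g * C.lap h) := by
    rw [hC.lap_add hB hf hg]; ring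
  rw [hC.NN_add_left hB hf hg hh hz, e, I_add (lap_int hC hf hh hz) (lap_int hC hg hh hz)]
  ring

theorem QQ_add_right (hf : f ∈ C.Test) (hg : g ∈ C.Test) (hh : h ∈ C.Test) (hz : z ∈ C.A) :
    QQ C K n h (f + g) z = QQ C K n h f z + QQ C K n h g z := by
  rw [QQ_symm hC hB hh (hC.test_add hB hf hg), QQ_add_left hC hB hf hg hh hz,
    QQ_symm hC hB hf hh, QQ_symm hC hB hg hh]

theorem QQ_smul_left (c : ℝ) (hf : f ∈ C.Test) (hh : h ∈ C.Test) (hz : z ∈ C.A) :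
    QQ C K n (c • f) h z = c * QQ C K n f h z := by
  unfold QQ
  have e : z * (C.lap (c • f) * C.lap h) = c • (z * (C.lap f * C.lap h)) := by
    rw [hC.lap_smul hB c hf]; algebra
  rw [hC.NN_smul_left hB c hf hh hz, e, I_smul]
  ring

theorem QQ_smul_right (c : ℝ) (hf : f ∈ C.Test) (hh : h ∈ C.Test) (hz : z ∈ C.A) :
    QQ C K n h (c • f) z = c * QQ C K n h f z := by
  rw [QQ_symm hC hB hh (hC.test_smul hB c hf), QQ_smul_left hC hB c hf hh hz, QQ_symm hC hB hf hh]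

theorem NN_add_right (hf : f ∈ C.Test) (hg : g ∈ C.Test) (hh : h ∈ C.Test) (hz : z ∈ C.A) :
    C.NN K h (f + g) z = C.NN K h f z + C.NN K h g z := by
  rw [hC.NN_symm hB hh (hC.test_add hB hf hg), hC.NN_add_left hB hf hg hh hz,
    hC.NN_symm hB hf hh, hC.NN_symm hB hg hh]

theorem NN_smul_right (c : ℝ) (hf : f ∈ C.Test) (hh : h ∈ C.Test) (hz : z ∈ C.A) :
    C.NN K h (c • f) z = c * C.NN K h f z := by
  rw [hC.NN_symm hB hh (hC.test_smul hB c hf), hC.NN_smul_left hB c hf hh hz, hC.NN_symm hB hf hh]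

theorem QQ_add_z (hf : f ∈ C.Test) (hg : g ∈ C.Test) (hz : z ∈ C.A) (hw : w ∈ C.A) :
    QQ C K n f g (z + w) = QQ C K n f g z + QQ C K n f g w := by
  unfold QQ
  rw [hC.NN_add_φ hB hf hg hz hw, add_mul, I_add (lap_int hC hf hg hz) (lap_int hC hf hg hw)]
  ring

theorem QQ_smul_z (c : ℝ) (hf : f ∈ C.Test) (hg : g ∈ C.Test) (hz : z ∈ C.A) :
    QQ C K n f g (c • z) = c * QQ C K n f g z := by
  unfold QQ
  rw [hC.NN_smul_φ hB c hf hg hz, smul_mul_assoc, I_smul]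
  ring

theorem NN_sub_z (hf : f ∈ C.Test) (hg : g ∈ C.Test) (hz : z ∈ C.A) (hw : w ∈ C.A) :
    C.NN K f g (z - w) = C.NN K f g z - C.NN K f g w := by
  have e : z - w = z + (-1 : ℝ) • w := by module
  rw [e, hC.NN_add_φ hB hf hg hz (hC.toIsDir.A_smul _ hw), hC.NN_smul_φ hB _ hf hg hw]
  ring

theorem QQ_sub_z (hf : f ∈ C.Test) (hg : g ∈ C.Test) (hz : z ∈ C.A) (hw : w ∈ C.A) :
    QQ C K n f g (z - w) = QQ C K n f g z - QQ C K n f g w := by
  have e : z - w = z + (-1 : ℝ) • w := by module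
  rw [e, QQ_add_z hC hB hf hg hz (hC.toIsDir.A_smul _ hw), QQ_smul_z hC hB _ hf hg hw]
  ring

end alg

section pos
variable (hC : IsGamma C) {K n : ℝ}
variable {f g h z w : M →ₘ[m] ℝ}
include hC

theorem QQ_nonneg (hn : 0 < n) (hBE : C.BE K n) (hf : f ∈ C.Test) (hz : z ∈ C.A) (h0 : 0 ≤ z) :
    0 ≤ QQ C K n f f z := by
  have hB := hC.bei hn hBE
  have h1 := hC.bochner_weakN hn hBE hf hz h0
  obtain ⟨n1, n2, n3, n4⟩ := hC.NN_int1 hB hf hf hz
  have e : z * (C.Γ f (C.lap f) + K • C.Γ f f + n⁻¹ • C.lap f ^ 2)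
      = (2 : ℝ)⁻¹ • (z * (C.Γ f (C.lap f) + C.Γ f (C.lap f))) + K • (z * C.Γ f f)
        + n⁻¹ • (z * (C.lap f * C.lap f)) := by algebra
  rw [e, I_add (mem_add (mem_smul _ n2) (mem_smul _ n3)) (mem_smul _ n4),
    I_add (mem_smul _ n2) (mem_smul _ n3), I_smul, I_smul, I_smul] at h1
  unfold QQ Calc.NN
  linarith only [h1]

theorem QQ_le_NN (hn : 0 < n) (h0 : 0 ≤ z) : QQ C K n f f z ≤ C.NN K f f z := by
  unfold QQ
  have h1 : 0 ≤ z * (C.lap f * C.lap f) := by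
    rw [nonneg_iff_ae] at h0 ⊢
    filter_upwards [h0, mul_ae z (C.lap f * C.lap f), mul_ae (C.lap f) (C.lap f)] with x a1 a2 a3
    rw [a2, a3]
    exact mul_nonneg a1 (mul_self_nonneg _)
  have h2 := I_nonneg h1
  have h3 : 0 ≤ n⁻¹ * I (z * (C.lap f * C.lap f)) := mul_nonneg (inv_nonneg.2 hn.le) h2
  linarith

/-- expansion of the square -/
theorem QQ_expand (hB : C.BEi K) (t : ℝ) (hf : f ∈ C.Test) (hg : g ∈ C.Test) (hz : z ∈ C.A) :
    QQ C K n (f + t • g) (f + t • g) z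
      = QQ C K n f f z + 2 * t * QQ C K n f g z + t ^ 2 * QQ C K n g g z := by
  have htg := hC.test_smul hB t hg
  have hs := hC.test_add hB hf htg
  rw [QQ_add_left hC hB hf htg hs hz, QQ_add_right hC hB hf htg hf hz,
    QQ_add_right hC hB hf htg htg hz, QQ_smul_right hC hB t hg hf hz,
    QQ_smul_right hC hB t hg htg hz, QQ_smul_left hC hB t hg hf hz, QQ_smul_left hC hB t hg hg hz,
    QQ_symm hC hB hg hf]
  ring

theorem NN_expand (hB : C.BEi K) (t : ℝ) (hf : f ∈ C.Test) (hg : g ∈ C.Test) (hz : z ∈ C.A) :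
    C.NN K (f + t • g) (f + t • g) z
      = C.NN K f f z + 2 * t * C.NN K f g z + t ^ 2 * C.NN K g g z := by
  have htg := hC.test_smul hB t hg
  have hs := hC.test_add hB hf htg
  rw [hC.NN_add_left hB hf htg hs hz, NN_add_right hC hB hf htg hf hz,
    NN_add_right hC hB hf htg htg hz, NN_smul_right hC hB t hg hf hz,
    NN_smul_right hC hB t hg htg hz, hC.NN_smul_left hB t hg hf hz, hC.NN_smul_left hB t hg hg hz,
    hC.NN_symm hB hg hf]
  ring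

/-- Cauchy-Schwarz -/
theorem QQ_cs (hn : 0 < n) (hBE : C.BE K n) (hf : f ∈ C.Test) (hg : g ∈ C.Test) (hz : z ∈ C.A)
    (h0 : 0 ≤ z) : QQ C K n f g z ^ 2 ≤ QQ C K n f f z * QQ C K n g g z := by
  have hB := hC.bei hn hBE
  refine disc_of_forall fun t => ?_
  rw [← QQ_expand hC hB t hf hg hz]
  exact QQ_nonneg hC hn hBE (hC.test_add hB hf (hC.test_smul hB t hg)) hz h0

theorem NN_cs (hB : C.BEi K) (hf : f ∈ C.Test) (hg : g ∈ C.Test) (hz : z ∈ C.A)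
    (h0 : 0 ≤ z) : C.NN K f g z ^ 2 ≤ C.NN K f f z * C.NN K g g z := by
  refine disc_of_forall fun t => ?_
  rw [← NN_expand hC hB t hf hg hz]
  exact hC.NN_nonneg hB (hC.test_add hB hf (hC.test_smul hB t hg)) hz h0

theorem QQ_mono (hn : 0 < n) (hBE : C.BE K n) (hf : f ∈ C.Test) (hz : z ∈ C.A) (hw : w ∈ C.A)
    (h : z ≤ w) : QQ C K n f f z ≤ QQ C K n f f w := by
  have hB := hC.bei hn hBE
  have h1 := QQ_nonneg hC hn hBE hf (hC.toIsDir.A_sub hw hz) (sub_nonneg.2 h)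
  rw [QQ_sub_z hC hB hf hf hw hz] at h1
  linarith

theorem NN_mono (hB : C.BEi K) (hf : f ∈ C.Test) (hz : z ∈ C.A) (hw : w ∈ C.A)
    (h : z ≤ w) : C.NN K f f z ≤ C.NN K f f w := by
  have h1 := hC.NN_nonneg hB hf (hC.toIsDir.A_sub hw hz) (sub_nonneg.2 h)
  rw [NN_sub_z hC hB hf hf hw hz] at h1
  linarith

end pos

/-- a real inequality -/
theorem sum_sqrt_le {a b c d : ℝ} (ha : 0 ≤ a) (hb : 0 ≤ b) (hc : 0 ≤ c) (hd : 0 ≤ d) :
    Real.sqrt a * Real.sqrt b + Real.sqrt c * Real.sqrt d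
      ≤ Real.sqrt (a + c) * Real.sqrt (b + d) := by
  have h1 := Real.sqrt_nonneg a
  have h2 := Real.sqrt_nonneg b
  have h3 := Real.sqrt_nonneg c
  have h4 := Real.sqrt_nonneg d
  rw [← Real.sqrt_mul (add_nonneg ha hc)]
  refine Real.le_sqrt_of_sq_le ?_
  have e1 := Real.sq_sqrt ha
  have e2 := Real.sq_sqrt hb
  have e3 := Real.sq_sqrt hc
  have e4 := Real.sq_sqrt hd
  set A := Real.sqrt a
  set B := Real.sqrt b
  set D := Real.sqrt c
  set E := Real.sqrt d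
  rw [← e1, ← e2, ← e3, ← e4]
  nlinarith [sq_nonneg (A * E - D * B)]

section absw
variable (hC : IsGamma C) {K n : ℝ}
variable {f g h z w : M →ₘ[m] ℝ}
include hC

theorem halves (hz : z ∈ C.A) (hw : w ∈ C.A) (h : ∀ᵐ x ∂m, |z x| ≤ w x) :
    ∃ a ∈ C.A, ∃ b ∈ C.A, 0 ≤ a ∧ 0 ≤ b ∧ a + b = w ∧ a - b = z := by
  refine ⟨(2 : ℝ)⁻¹ • (w + z), hC.toIsDir.A_smul _ (hC.toIsDir.A_add hw hz),
    (2 : ℝ)⁻¹ • (w - z), hC.toIsDir.A_smul _ (hC.toIsDir.A_sub hw hz), ?_, ?_, ?_, ?_⟩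
  · refine smul_nonneg' (by norm_num) ?_
    rw [nonneg_iff_ae]
    filter_upwards [h, add_ae w z] with x a1 a2
    rw [a2]; linarith [neg_abs_le (z x)]
  · refine smul_nonneg' (by norm_num) ?_
    rw [nonneg_iff_ae]
    filter_upwards [h, sub_ae w z] with x a1 a2
    rw [a2]; linarith [le_abs_self (z x)]
  · module
  · module

/-- Cauchy-Schwarz with a signed weight `z`, `|z| ≤ w` -/
theorem QQ_cs_abs (hn : 0 < n) (hBE : C.BE K n) (hf : f ∈ C.Test) (hg : g ∈ C.Test)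
    (hz : z ∈ C.A) (hw : w ∈ C.A) (h : ∀ᵐ x ∂m, |z x| ≤ w x) :
    |QQ C K n f g z| ≤ Real.sqrt (QQ C K n f f w) * Real.sqrt (QQ C K n g g w) := by
  have hB := hC.bei hn hBE
  obtain ⟨a, ha, b, hb, a0, b0, e1, e2⟩ := halves hC hz hw h
  have f1 : QQ C K n f g z = QQ C K n f g a - QQ C K n f g b := by
    rw [← e2, QQ_sub_z hC hB hf hg ha hb]
  have f2 : QQ C K n f f w = QQ C K n f f a + QQ C K n f f b := by
    rw [← e1, QQ_add_z hC hB hf hf ha hb]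
  have f3 : QQ C K n g g w = QQ C K n g g a + QQ C K n g g b := by
    rw [← e1, QQ_add_z hC hB hg hg ha hb]
  have p1 := QQ_nonneg hC hn hBE hf ha a0
  have p2 := QQ_nonneg hC hn hBE hf hb b0
  have p3 := QQ_nonneg hC hn hBE hg ha a0
  have p4 := QQ_nonneg hC hn hBE hg hb b0
  have c1 : |QQ C K n f g a| ≤ Real.sqrt (QQ C K n f f a) * Real.sqrt (QQ C K n g g a) := by
    rw [← Real.sqrt_mul p1]
    exact Real.abs_le_sqrt (QQ_cs hC hn hBE hf hg ha a0)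
  have c2 : |QQ C K n f g b| ≤ Real.sqrt (QQ C K n f f b) * Real.sqrt (QQ C K n g g b) := by
    rw [← Real.sqrt_mul p2]
    exact Real.abs_le_sqrt (QQ_cs hC hn hBE hf hg hb b0)
  rw [f1, f2, f3]
  exact ((abs_sub _ _).trans (add_le_add c1 c2)).trans (sum_sqrt_le p1 p3 p2 p4)

theorem NN_cs_abs (hB : C.BEi K) (hf : f ∈ C.Test) (hg : g ∈ C.Test)
    (hz : z ∈ C.A) (hw : w ∈ C.A) (h : ∀ᵐ x ∂m, |z x| ≤ w x) :
    |C.NN K f g z| ≤ Real.sqrt (C.NN K f f w) * Real.sqrt (C.NN K g g w) := by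
  obtain ⟨a, ha, b, hb, a0, b0, e1, e2⟩ := halves hC hz hw h
  have f1 : C.NN K f g z = C.NN K f g a - C.NN K f g b := by
    rw [← e2, NN_sub_z hC hB hf hg ha hb]
  have f2 : C.NN K f f w = C.NN K f f a + C.NN K f f b := by
    rw [← e1, hC.NN_add_φ hB hf hf ha hb]
  have f3 : C.NN K g g w = C.NN K g g a + C.NN K g g b := by
    rw [← e1, hC.NN_add_φ hB hg hg ha hb]
  have p1 := hC.NN_nonneg hB hf ha a0
  have p2 := hC.NN_nonneg hB hf hb b0
  have p3 := hC.NN_nonneg hB hg ha a0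
  have p4 := hC.NN_nonneg hB hg hb b0
  have c1 : |C.NN K f g a| ≤ Real.sqrt (C.NN K f f a) * Real.sqrt (C.NN K g g a) := by
    rw [← Real.sqrt_mul p1]
    exact Real.abs_le_sqrt (NN_cs hC hB hf hg ha a0)
  have c2 : |C.NN K f g b| ≤ Real.sqrt (C.NN K f f b) * Real.sqrt (C.NN K g g b) := by
    rw [← Real.sqrt_mul p2]
    exact Real.abs_le_sqrt (NN_cs hC hB hf hg hb b0)
  rw [f1, f2, f3]
  exact ((abs_sub _ _).trans (add_le_add c1 c2)).trans (sum_sqrt_le p1 p3 p2 p4)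

/-- `Q(f+g) ≤ 2Q(f) + 2Q(g)` -/
theorem QQ_add_le (hn : 0 < n) (hBE : C.BE K n) (hf : f ∈ C.Test) (hg : g ∈ C.Test)
    (hz : z ∈ C.A) (h0 : 0 ≤ z) :
    QQ C K n (f + g) (f + g) z ≤ 2 * QQ C K n f f z + 2 * QQ C K n g g z := by
  have hB := hC.bei hn hBE
  have e1 := QQ_expand hC (n := n) hB 1 hf hg hz
  have e2 := QQ_expand hC (n := n) hB (-1) hf hg hz
  have e3 := QQ_nonneg hC hn hBE (hC.test_add hB hf (hC.test_smul hB (-1) hg)) hz h0
  rw [one_smul] at e1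
  rw [e2] at e3
  rw [e1]
  linarith

theorem QQ_sub_le (hn : 0 < n) (hBE : C.BE K n) (hf : f ∈ C.Test) (hg : g ∈ C.Test)
    (hz : z ∈ C.A) (h0 : 0 ≤ z) :
    QQ C K n (f - g) (f - g) z ≤ 2 * QQ C K n f f z + 2 * QQ C K n g g z := by
  have hB := hC.bei hn hBE
  have h1 := QQ_add_le hC hn hBE hf (hC.test_smul hB (-1) hg) hz h0
  have e : f + (-1 : ℝ) • g = f - g := by module
  rw [e, QQ_smul_left hC hB _ hg (hC.test_smul hB _ hg) hz, QQ_smul_right hC hB _ hg hg hz] at h1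
  linarith

theorem NN_add_le (hB : C.BEi K) (hf : f ∈ C.Test) (hg : g ∈ C.Test)
    (hz : z ∈ C.A) (h0 : 0 ≤ z) :
    C.NN K (f + g) (f + g) z ≤ 2 * C.NN K f f z + 2 * C.NN K g g z := by
  have e1 := NN_expand hC hB 1 hf hg hz
  have e2 := NN_expand hC hB (-1) hf hg hz
  have e3 := hC.NN_nonneg hB (hC.test_add hB hf (hC.test_smul hB (-1) hg)) hz h0
  rw [one_smul] at e1
  rw [e2] at e3
  rw [e1]
  linarith

end absw

end Vale.Agent.P242.H363
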