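import Vale.Agent.P242.H363.KW2
import Vale.Agent.P242.H937.Wt2
import Vale.Agent.P242.H852.E6Voc

/-! P242, package A-RAD, file KW3: the fields (Pnn), (Ple), (K) of the discrete core for the radial
weights `X_j = t_j Φ(b'/t_j)`, in the words of Part A. -/

set_option linter.all false

open MeasureTheory Filter Topology Set
open scoped ENNReal NNReal InnerProductSpace

universe u

namespace Vale.Agent.P242.H363

open Vale.Agent.P233 Vale.Agent.P242.H990 Vale.Agent.P242.H520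
open Vale.Agent.P242.H937 (Base Sc Sf wt cL cB)
open Vale.Agent.P242.H852 (tl ws)

theorem bei_abs {M : Type*} [MeasurableSpace M] {m : Measure M} {C : Calc m} (hC : IsGamma C)
    {K N : ℝ} (hN : 0 < N) (hBE : C.BE K N) : C.BEi (-|K|) :=
  hC.bei hN (hC.BE_mono (neg_abs_le K) hN hBE)

/-- `r^{-n} NN(f,f)(t Φ(b'/t))`, `t = r²` -/
noncomputable def PJ {M : Type u} [MetricSpace M] [MeasurableSpace M] (m : Measure M) (n : ℕ)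
    (K : ℝ) (p : ℝ → M → M → ℝ) (Φ : ℝ → ℝ) (y : M) (r : ℝ) (f : M →ₘ[m] ℝ) : ℝ :=
  (r ^ n)⁻¹ * (sob m).NN (-|K|) f f (r ^ 2 • wt m n p Φ y (r ^ 2))

section P
variable {M : Type u} [MetricSpace M] [CompleteSpace M] [SecondCountableTopology M]
  [MeasurableSpace M] [BorelSpace M] {m : Measure M} {n : ℕ} {K : ℝ} {p : ℝ → M → M → ℝ}
  {o : M} {A Cm a : ℝ} {Φ : ℝ → ℝ} {f : M →ₘ[m] ℝ} {r : ℝ}

theorem PJ_nonneg (H : Base m n K o A p Cm) (hΦ : Sf a Φ) (h0 : ∀ x, 0 ≤ Φ x) (y : M) (hr : 0 < r)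
    (hs : Sc n K Cm a (r ^ 2)) (hf : f ∈ (sob m).Test) : 0 ≤ PJ m n K p Φ y r f := by
  have hB := bei_abs H.gamma H.n_pos H.be
  refine mul_nonneg (by positivity) (H.gamma.NN_nonneg hB hf
    (H.dir.A_smul _ (H.wt_A hΦ y hs)) ?_)
  exact smul_nonneg' (by positivity) (H.wt_nonneg hΦ.cont h0 y hs.pos)

theorem PJ_le (H : Base m n K o A p Cm) (hΦ : Sf a Φ) {B R₁ : ℝ}
    (hB' : ∀ x, -(n : ℝ) ≤ x → |Φ x| ≤ B) {y : M} (hy : dist y o ≤ R₁) (hr : 0 < r)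
    (hs : Sc n K Cm a (r ^ 2)) (hf : f ∈ (sob m).Test) :
    PJ m n K p Φ y r f ≤ B * cB n A 1 (cL n Cm a) R₁ * (r ^ 2 * H71.gam m K p (r ^ 2) y f f) := by
  have hB := bei_abs H.gamma H.n_pos H.be
  have h16 := hs.le16 H.one H.n_pos.le
  have h1 := (H.wt_le' hΦ hB' hs (s := r ^ 2) (Γ := 1) (C₀ := 0) (R₁ := R₁) (q := y) (y := y)
    hs.pos (by linarith) (by linarith) (by linarith) hy (by simp)).1
  rw [add_zero, Real.sqrt_sq hr.le] at h1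
  have hph := ph_A H.gamma H.ker H.kb hs.pos y
  have h2 := NN_mono H.gamma hB hf (H.wt_A hΦ y hs) (H.dir.A_smul _ hph) h1
  rw [H.gamma.NN_smul_φ hB _ hf hf hph] at h2
  unfold PJ
  rw [H.gamma.NN_smul_φ hB _ hf hf (H.wt_A hΦ y hs)]
  have h3 : (r ^ n)⁻¹ * (r ^ 2 * (sob m).NN (-|K|) f f (wt m n p Φ y (r ^ 2))) ≤
      (r ^ n)⁻¹ * (r ^ 2 * (B * (cB n A 1 (cL n Cm a) R₁ * r ^ n) *
        (sob m).NN (-|K|) f f (ph m p (r ^ 2) y))) := by gcongr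
  refine h3.trans (le_of_eq ?_)
  unfold H71.gam
  field_simp

end P

/-- (K) for the radial weights -/
theorem K_wt (n : ℕ) {A Λ ω R₁ ξ : ℝ} (hA : 1 ≤ A) (hΛ : 1 < Λ) (hω : 0 < ω) (hξ : 0 < ξ)
    (hR : 0 ≤ R₁) :
    ∃ c : ℝ, 0 < c ∧ ∀ {M : Type u} [MetricSpace M] [CompleteSpace M] [SecondCountableTopology M]
      [MeasurableSpace M] [BorelSpace M] {m : Measure M} {K : ℝ} {p : ℝ → M → M → ℝ}
      {o : M} {Cm a : ℝ} {Φ : ℝ → ℝ}, Base m n K o A p Cm → Sf a Φ → (∀ x, 0 ≤ Φ x) →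
      (∀ x, x ≤ 1 / 4 → ξ ≤ Φ x) → ∀ (y : M), dist y o ≤ R₁ → ∀ r0 T : ℝ, 0 < r0 →
      Sc n K Cm a (r0 ^ 2) → 2 * A ^ 2 * Λ ^ 2 * r0 ^ 2 ≤ T → T ≤ 1 / 2 → ∀ (j : ℕ) (s : ℝ),
      (r0 / Λ ^ j) ^ 2 ≤ s → s ≤ Λ ^ 2 * (r0 / Λ ^ j) ^ 2 →
      ∀ f : M →ₘ[m] ℝ, f ∈ (sob m).Test →
      s * H71.gam m K p s y f f ≤
        c * ∑ i ∈ Finset.range (j + 1), ω ^ (j - i) * PJ m n K p Φ y (r0 / Λ ^ i) f
          + c * (√T / r0) ^ n * ω ^ j * (T * H71.gam m K p T y f f) := by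
  obtain ⟨c, hc, h⟩ := K_gam.{u} n (A := A) (Λ := Λ) (Γ := 4 * Λ ^ 2) (ω := ω)
    (E := Real.exp (A * R₁)) (ξ := ξ) hA hΛ (by nlinarith) hω
    (Real.one_le_exp (by positivity)) hξ
  refine ⟨c * 2 ^ n, by positivity, ?_⟩
  intro M _ _ _ _ _ m K p o Cm a Φ H hΦ h0 h1 y hy r0 T hr0 hs hT hT1 j s hs1 hs2 f hf
  have hΛ0 : 0 < Λ := by linarith
  have hB := bei_abs H.gamma H.n_pos H.be
  have hsi : ∀ i, Sc n K Cm a ((r0 / Λ ^ i) ^ 2) := fun i => by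
    refine hs.le H.one (by positivity) ?_
    have : r0 / Λ ^ i ≤ r0 := div_le_self hr0.le (one_le_pow₀ hΛ.le)
    gcongr
  have ri : ∀ i, 0 < r0 / Λ ^ i := fun i => by positivity
  have key := h (M := M) (m := m) (o := o) (p := p) (κ := -|K|) H.gamma hB H.ker H.kb y
    (Real.exp_le_exp.2 (by have := H.kb.pos; gcongr)) (r0 / 2) T (by positivity)
    (by calc 2 * A ^ 2 * (4 * Λ ^ 2) * (r0 / 2) ^ 2 = 2 * A ^ 2 * Λ ^ 2 * r0 ^ 2 := by ring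
          _ ≤ T := hT) hT1 j s
    (by
      refine le_trans ?_ hs1
      have : r0 / 2 / Λ ^ j ≤ r0 / Λ ^ j := by gcongr; linarith
      gcongr)
    (by
      refine hs2.trans (le_of_eq ?_)
      field_simp
      ring)
    (fun i => (r0 / Λ ^ i) ^ 2 • wt m n p Φ y ((r0 / Λ ^ i) ^ 2))
    (fun i _ => H.dir.A_smul _ (H.wt_A hΦ y (hsi i)))
    (fun i _ => nonneg_iff_ae.1
      (smul_nonneg' (by positivity) (H.wt_nonneg hΦ.cont h0 y (hsi i).pos)))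
    (fun i _ => by
      filter_upwards [H.wt_near' hΦ.cont y (hsi i),
        smul_ae (wt m n p Φ y ((r0 / Λ ^ i) ^ 2)) ((r0 / Λ ^ i) ^ 2)] with z hz hz2 hd
      rw [hz2]
      obtain ⟨x, hx, e⟩ := hz (by
        rw [Real.sqrt_sq (ri i).le, dist_comm]
        refine hd.trans (le_of_eq ?_)
        ring)
      rw [e]
      have g1 := h1 x hx
      have g2 : (r0 / 2 / Λ ^ i) ^ 2 ≤ (r0 / Λ ^ i) ^ 2 := by
        have : r0 / 2 / Λ ^ i ≤ r0 / Λ ^ i := by gcongr; linarith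
        gcongr
      calc ξ * (r0 / 2 / Λ ^ i) ^ 2 ≤ ξ * (r0 / Λ ^ i) ^ 2 := by gcongr
        _ ≤ Φ x * (r0 / Λ ^ i) ^ 2 := by gcongr
        _ = (r0 / Λ ^ i) ^ 2 * Φ x := by ring) f hf
  have e1 : ∑ i ∈ Finset.range (j + 1), ω ^ (j - i) * (((r0 / 2 / Λ ^ i) ^ n)⁻¹ *
      (sob m).NN (-|K|) f f ((r0 / Λ ^ i) ^ 2 • wt m n p Φ y ((r0 / Λ ^ i) ^ 2)))
      = 2 ^ n * ∑ i ∈ Finset.range (j + 1), ω ^ (j - i) * PJ m n K p Φ y (r0 / Λ ^ i) f := by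
    rw [Finset.mul_sum]
    refine Finset.sum_congr rfl fun i _ => ?_
    unfold PJ
    have : r0 / 2 / Λ ^ i = (r0 / Λ ^ i) / 2 := by ring
    rw [this, div_pow (r0 / Λ ^ i) 2 n, inv_div]
    field_simp
  have e2 : (√T / (r0 / 2)) ^ n = 2 ^ n * (√T / r0) ^ n := by
    rw [← mul_pow]
    congr 1
    field_simp
  rw [e1, e2] at key
  unfold H71.gam
  refine key.trans (le_of_eq ?_)
  ring

/-- the field (K) of `H852.E6In` -/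
theorem K_field (n : ℕ) {A Λ R₁ ξ : ℝ} (hA : 1 ≤ A) (hΛ : 1 < Λ) (hξ : 0 < ξ)
    (hR : 0 ≤ R₁) :
    ∃ CL : ℝ, 1 ≤ CL ∧ ∀ {M : Type u} [MetricSpace M] [CompleteSpace M] [SecondCountableTopology M]
      [MeasurableSpace M] [BorelSpace M] {m : Measure M} {K : ℝ} {p : ℝ → M → M → ℝ}
      {o : M} {Cm a : ℝ} {Φ : ℝ → ℝ}, Base m n K o A p Cm → Sf a Φ → (∀ x, 0 ≤ Φ x) →
      (∀ x, x ≤ 1 / 4 → ξ ≤ Φ x) → ∀ (y : M), dist y o ≤ R₁ → ∀ r₀ ρ η A₀ : ℝ, 0 < r₀ → 0 < ρ →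
      Sc n K Cm a (r₀ ^ 2) → 2 * A ^ 2 * Λ ^ 2 * r₀ ^ 2 ≤ ρ ^ 2 → ρ ^ 2 ≤ 1 / 2 →
      0 ≤ η → 0 ≤ A₀ → 2 * (ρ / r₀) ^ n * η ≤ A₀ * (tl r₀ Λ 0 / ρ ^ 2) ^ (1 / 4 : ℝ) →
      ∀ u : Fin n → M →ₘ[m] ℝ, (∀ c : H71.E n, H71.uc u c ∈ (sob m).Test) →
      (∀ c : H71.E n, ρ ^ 2 * H71.gm m K p u (ρ ^ 2) y c c ≤ η * ‖c‖ ^ 2) →
      (∀ j (c : H71.E n), (tl r₀ Λ j / ρ ^ 2) ^ (1 / 8 : ℝ) * ‖c‖ ^ 2 ≤
        2 * H71.Gm m p u (tl r₀ Λ j) y c c) →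
      ∀ j v s, tl r₀ Λ (j + 1) ≤ s → s ≤ tl r₀ Λ j →
        tl r₀ Λ (j + 1) * H71.gm m K p u s y v v ≤
          CL * (ws (Λ ^ (-(1 / 2) : ℝ) / 2)
            (fun i => PJ m n K p Φ y (r₀ / Λ ^ i) (H71.uc u v)) (j + 1) +
          A₀ * (tl r₀ Λ 0 / ρ ^ 2) ^ (1 / 8 : ℝ) * (Λ ^ (-(1 / 2) : ℝ) / 2) ^ (j + 1) *
            H71.Gm m p u (tl r₀ Λ (j + 1)) y v v) := by
  have hΛ0 : 0 < Λ := by linarith
  obtain ⟨c, hc, h⟩ := K_wt.{u} n (A := A) (Λ := Λ) (ω := Λ ^ (-(3 / 4) : ℝ) / 2)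
    (R₁ := R₁) (ξ := ξ) hA hΛ (by positivity) hξ hR
  refine ⟨1 + c, by linarith, ?_⟩
  intro M _ _ _ _ _ m K p o Cm a Φ H hΦ h0 h1 y hy r₀ ρ η A₀ hr₀ hρ hs hT hT1 hη hA₀ hsm u hu hgT
    hlow j v s hs1 hs2
  have tlj : ∀ i, tl r₀ Λ i = (r₀ / Λ ^ i) ^ 2 := fun i => rfl
  have tpos : ∀ i, 0 < tl r₀ Λ i := fun i => by rw [tlj]; positivity
  have key := h H hΦ h0 h1 y hy r₀ (ρ ^ 2) hr₀ hs hT hT1 (j + 1) s hs1 (by
    refine hs2.trans (le_of_eq ?_)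
    rw [tlj]
    field_simp
    ring) (H71.uc u v) (hu v)
  rw [Real.sqrt_sq hρ.le] at key
  set ω : ℝ := Λ ^ (-(3 / 4) : ℝ) / 2 with hω
  set α : ℝ := Λ ^ (-(1 / 2) : ℝ) / 2 with hα
  have hω0 : 0 < ω := by positivity
  have hα0 : 0 < α := by positivity
  have hωα : ω ≤ α := by
    rw [hω, hα]
    have : Λ ^ (-(3 / 4) : ℝ) ≤ Λ ^ (-(1 / 2) : ℝ) :=
      Real.rpow_le_rpow_of_exponent_le hΛ.le (by norm_num)
    linarith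
  set G := H71.Gm m p u (tl r₀ Λ (j + 1)) y v v with hG
  set g := H71.gm m K p u s y v v with hg
  have g0 : 0 ≤ g := by
    have hB := bei_abs H.gamma H.n_pos H.be
    have s0 : 0 < s := (tpos _).trans_le hs1
    exact H.gamma.NN_nonneg hB (hu v) (ph_A H.gamma H.ker H.kb s0 y) (ph_nonneg H.ker s0 y)
  have hP : ∀ i, 0 ≤ PJ m n K p Φ y (r₀ / Λ ^ i) (H71.uc u v) := fun i => by
    refine PJ_nonneg H hΦ h0 y (by positivity) ?_ (hu v)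
    refine hs.le H.one (by positivity) ?_
    have : r₀ / Λ ^ i ≤ r₀ := div_le_self hr₀.le (one_le_pow₀ hΛ.le)
    gcongr
  have b1 : ∑ i ∈ Finset.range (j + 1 + 1), ω ^ (j + 1 - i) *
      PJ m n K p Φ y (r₀ / Λ ^ i) (H71.uc u v)
      ≤ ws α (fun i => PJ m n K p Φ y (r₀ / Λ ^ i) (H71.uc u v)) (j + 1) := by
    unfold ws
    refine Finset.sum_le_sum fun i _ => ?_
    have := hP i
    gcongr
  have b0 : 0 ≤ ws α (fun i => PJ m n K p Φ y (r₀ / Λ ^ i) (H71.uc u v)) (j + 1) := by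
    unfold ws
    refine Finset.sum_nonneg fun i _ => ?_
    have := hP i
    positivity
  -- the tail
  have b2 : (ρ / r₀) ^ n * ω ^ (j + 1) * (ρ ^ 2 * H71.gm m K p u (ρ ^ 2) y v v)
      ≤ A₀ * (tl r₀ Λ 0 / ρ ^ 2) ^ (1 / 8 : ℝ) * α ^ (j + 1) * G := by
    have c1 : (ρ / r₀) ^ n * ω ^ (j + 1) * (ρ ^ 2 * H71.gm m K p u (ρ ^ 2) y v v)
        ≤ (ρ / r₀) ^ n * ω ^ (j + 1) * (η * ‖v‖ ^ 2) := by
      have := hgT v
      gcongr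
    refine c1.trans ?_
    have c2 := hlow (j + 1) v
    set q : ℝ := tl r₀ Λ 0 / ρ ^ 2 with hq
    have hq0 : 0 < q := by
      rw [hq]
      have := tpos 0
      positivity
    have c3 : (tl r₀ Λ (j + 1) / ρ ^ 2) ^ (1 / 8 : ℝ) =
        q ^ (1 / 8 : ℝ) * (Λ ^ (-(1 / 4) : ℝ)) ^ (j + 1) := by
      have d1 : tl r₀ Λ (j + 1) / ρ ^ 2 = q * (Λ ^ (2 * (j + 1)))⁻¹ := by
        rw [hq, tlj, tlj, pow_zero, div_one]
        rw [div_pow, ← pow_mul, mul_comm (j + 1) 2]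
        field_simp
      have d2 : ((Λ ^ (2 * (j + 1)))⁻¹ : ℝ) ^ (1 / 8 : ℝ) = (Λ ^ (-(1 / 4) : ℝ)) ^ (j + 1) := by
        rw [← Real.rpow_natCast, ← Real.rpow_neg hΛ0.le, ← Real.rpow_mul hΛ0.le,
          ← Real.rpow_natCast, ← Real.rpow_mul hΛ0.le]
        congr 1
        push_cast
        ring
      rw [d1, Real.mul_rpow hq0.le (by positivity), d2]
    rw [c3] at c2
    have c4 : ω = Λ ^ (-(1 / 4) : ℝ) * α := by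
      rw [hω, hα, ← mul_div_assoc, ← Real.rpow_add hΛ0]
      norm_num
    have c5 : q ^ (1 / 4 : ℝ) = q ^ (1 / 8 : ℝ) * q ^ (1 / 8 : ℝ) := by
      rw [← Real.rpow_add hq0]
      norm_num
    rw [c5] at hsm
    have q8 : 0 < q ^ (1 / 8 : ℝ) := Real.rpow_pos_of_pos hq0 _
    have c6 : (ρ / r₀) ^ n * ω ^ (j + 1) * (η * ‖v‖ ^ 2) * (2 * q ^ (1 / 8 : ℝ))
        ≤ (A₀ * q ^ (1 / 8 : ℝ) * α ^ (j + 1) * G) * (2 * q ^ (1 / 8 : ℝ)) := by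
      have e1 : (ρ / r₀) ^ n * ω ^ (j + 1) * (η * ‖v‖ ^ 2) * (2 * q ^ (1 / 8 : ℝ))
          = (2 * (ρ / r₀) ^ n * η) * α ^ (j + 1) *
            (q ^ (1 / 8 : ℝ) * (Λ ^ (-(1 / 4) : ℝ)) ^ (j + 1) * ‖v‖ ^ 2) := by
        rw [c4, mul_pow]
        ring
      rw [e1]
      calc (2 * (ρ / r₀) ^ n * η) * α ^ (j + 1) *
            (q ^ (1 / 8 : ℝ) * (Λ ^ (-(1 / 4) : ℝ)) ^ (j + 1) * ‖v‖ ^ 2)
          ≤ (A₀ * (q ^ (1 / 8 : ℝ) * q ^ (1 / 8 : ℝ))) * α ^ (j + 1) * (2 * G) := by gcongr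
        _ = _ := by ring
    exact le_of_mul_le_mul_right c6 (by positivity)
  have G0 : 0 ≤ A₀ * (tl r₀ Λ 0 / ρ ^ 2) ^ (1 / 8 : ℝ) * α ^ (j + 1) * G := by
    have hG0 : 0 ≤ G := by
      have c2 := hlow (j + 1) v
      have : 0 ≤ (tl r₀ Λ (j + 1) / ρ ^ 2) ^ (1 / 8 : ℝ) * ‖v‖ ^ 2 := by
        have := (tpos (j + 1)).le
        positivity
      linarith
    have := (tpos 0).le
    positivity
  calc tl r₀ Λ (j + 1) * g ≤ s * g := by gcongr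
    _ ≤ _ := key
    _ = c * (∑ i ∈ Finset.range (j + 1 + 1), ω ^ (j + 1 - i) *
      PJ m n K p Φ y (r₀ / Λ ^ i) (H71.uc u v)) +
      c * ((ρ / r₀) ^ n * ω ^ (j + 1) * (ρ ^ 2 * H71.gm m K p u (ρ ^ 2) y v v)) := by
        unfold H71.gm
        ring
    _ ≤ c * (ws α (fun i => PJ m n K p Φ y (r₀ / Λ ^ i) (H71.uc u v)) (j + 1)) +
      c * (A₀ * (tl r₀ Λ 0 / ρ ^ 2) ^ (1 / 8 : ℝ) * α ^ (j + 1) * G) := by gcongr
    _ ≤ _ := by linarith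

end Vale.Agent.P242.H363
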