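import Vale.Agent.P242.H990.Gauss

/-! P242, package A-RAD, file KW1: the heat kernel at a time in `[r_j², Γ r_j²]` is dominated by
the indicators of the balls of radius `r_i`, `i ≤ j`, and by the kernel at a large time. -/

set_option linter.all false

open MeasureTheory Filter Topology Set Real

namespace Vale.Agent.P242.H363

open Vale.Agent.P242.H990

/-- `Λ^{nm} exp(-a Λ^{2m}) ≤ C ω^m` -/
theorem exists_geom_bound (n : ℕ) {Λ ω a : ℝ} (hΛ : 1 < Λ) (hω : 0 < ω) (ha : 0 < a) :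
    ∃ C : ℝ, 0 < C ∧ ∀ m : ℕ, Λ ^ (n * m) * exp (-(a * Λ ^ (2 * m))) ≤ C * ω ^ m := by
  have hΛ0 : 0 < Λ := by linarith
  have hΛ2 : 1 < Λ ^ 2 := one_lt_pow₀ hΛ (by norm_num)
  obtain ⟨k, hk⟩ := pow_unbounded_of_one_lt (Λ ^ n / ω) hΛ2
  refine ⟨(k.factorial : ℝ) / a ^ k, by positivity, fun m => ?_⟩
  set x : ℝ := Λ ^ (2 * m) with hx
  have hx0 : 0 < x := by positivity
  have h1 : Λ ^ (n * m) ≤ ω ^ m * x ^ k := by
    have e1 : Λ ^ (n * m) = ω ^ m * (Λ ^ n / ω) ^ m := by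
      rw [← mul_pow, mul_div_cancel₀ _ hω.ne', pow_mul]
    have e2 : x ^ k = ((Λ ^ 2) ^ k) ^ m := by
      rw [hx, ← pow_mul, ← pow_mul, ← pow_mul]
      congr 1
      ring
    rw [e1, e2]
    exact mul_le_mul_of_nonneg_left (pow_le_pow_left₀ (by positivity) hk.le m) (by positivity)
  have h2 : x ^ k * exp (-(a * x)) ≤ (k.factorial : ℝ) / a ^ k := by
    have h3 := Real.pow_div_factorial_le_exp (a * x) (by positivity) k
    have hk0 : (0 : ℝ) < k.factorial := by exact_mod_cast k.factorial_pos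
    rw [div_le_iff₀ hk0, mul_pow] at h3
    rw [le_div_iff₀ (by positivity), Real.exp_neg]
    have h4 := Real.exp_pos (a * x)
    have h5 : x ^ k * (exp (a * x))⁻¹ * a ^ k = (a ^ k * x ^ k) * (exp (a * x))⁻¹ := by ring
    rw [h5, mul_inv_le_iff₀ h4]
    linarith
  calc Λ ^ (n * m) * exp (-(a * x)) ≤ (ω ^ m * x ^ k) * exp (-(a * x)) :=
        mul_le_mul_of_nonneg_right h1 (Real.exp_pos _).le
    _ = (x ^ k * exp (-(a * x))) * ω ^ m := by ring
    _ ≤ _ := mul_le_mul_of_nonneg_right h2 (by positivity)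

variable {M : Type*} [MetricSpace M] {n : ℕ} {o : M} {A : ℝ} {p : ℝ → M → M → ℝ}

/-- domination of the kernel -/
theorem ker_dom (n : ℕ) {A Λ Γ ω E : ℝ} (hA : 1 ≤ A) (hΛ : 1 < Λ) (hΓ : 1 ≤ Γ) (hω : 0 < ω)
    (hE : 1 ≤ E) :
    ∃ C : ℝ, 0 < C ∧ ∀ {M : Type*} [MetricSpace M] {o : M} {p : ℝ → M → M → ℝ}, KB n o A p →
      ∀ (y : M), exp (A * dist y o) ≤ E → ∀ (r0 T : ℝ), 0 < r0 →
      2 * A ^ 2 * Γ * r0 ^ 2 ≤ T → T ≤ 1 / 2 → ∀ (j : ℕ) (s : ℝ),
      (r0 / Λ ^ j) ^ 2 ≤ s → s ≤ Γ * (r0 / Λ ^ j) ^ 2 → ∀ z : M,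
      (dist y z ≤ r0 → ∃ i, i ≤ j ∧ dist y z ≤ r0 / Λ ^ i ∧
        p s y z ≤ C * ω ^ (j - i) * ((r0 / Λ ^ i) ^ n)⁻¹) ∧
      (r0 < dist y z → p s y z ≤ C * ω ^ j * (√T / r0) ^ n * p T y z) := by
  have hA0 : 0 < A := by linarith
  have hΛ0 : 0 < Λ := by linarith
  have hΓ0 : 0 < Γ := by linarith
  obtain ⟨C1, hC1, h1⟩ := exists_geom_bound n hΛ hω (a := 1 / (A * Γ * Λ ^ 2)) (by positivity)
  obtain ⟨C2, hC2, h2⟩ := exists_geom_bound n hΛ hω (a := 1 / (2 * A * Γ)) (by positivity)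
  refine ⟨A ^ 2 * E ^ 2 * (1 + C1 + C2), by positivity, ?_⟩
  intro M _ o p h y hy r0 T hr0 hT hT1 j s hs1 hs2 z
  have rj0 : 0 < r0 / Λ ^ j := by positivity
  have s0 : 0 < s := lt_of_lt_of_le (by positivity) hs1
  have hΛj : (1 : ℝ) ≤ Λ ^ j := one_le_pow₀ hΛ.le
  have rj1 : r0 / Λ ^ j ≤ r0 := div_le_self hr0.le hΛj
  have T0 : 0 < T := lt_of_lt_of_le (by positivity) hT
  have sT : 2 * A ^ 2 * s ≤ T := by
    refine le_trans ?_ hT
    have : s ≤ Γ * r0 ^ 2 := hs2.trans (by gcongr)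
    calc 2 * A ^ 2 * s ≤ 2 * A ^ 2 * (Γ * r0 ^ 2) := by gcongr
      _ = _ := by ring
  have hA2 : 1 ≤ A ^ 2 := one_le_pow₀ hA
  have s12 : s ≤ 1 / 2 := by nlinarith
  have up := h.upper s s0 s12 y z
  have hd0 : 0 ≤ dist y z := dist_nonneg
  have q1 : (√s ^ n)⁻¹ ≤ ((r0 / Λ ^ j) ^ n)⁻¹ := by
    have : r0 / Λ ^ j ≤ √s := Real.le_sqrt_of_sq_le hs1
    gcongr
  have E0 : 0 < E := by linarith
  have up1 : ∀ e : ℝ, 0 ≤ e → exp (-(dist y z ^ 2 / (A * s))) ≤ e →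
      p s y z ≤ A * E * ((r0 / Λ ^ j) ^ n)⁻¹ * e := by
    intro e he0 he
    refine up.trans ?_
    have : 0 < √s := Real.sqrt_pos.2 s0
    gcongr
  constructor
  · intro hdr
    -- the largest index
    have hex : ∃ i, i ≤ j ∧ dist y z ≤ r0 / Λ ^ i ∧ (i = j ∨ r0 / Λ ^ (i + 1) < dist y z) := by
      by_cases hcase : ∀ i, i ≤ j → dist y z ≤ r0 / Λ ^ i
      · exact ⟨j, le_rfl, hcase j le_rfl, Or.inl rfl⟩
      · push Not at hcase
        classical
        have hP : ∃ i, i ≤ j ∧ r0 / Λ ^ i < dist y z := hcase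
        set i0 := Nat.find hP with hi0
        obtain ⟨g1, g2⟩ := Nat.find_spec hP
        have hne : i0 ≠ 0 := by
          intro h0
          rw [← hi0, h0, pow_zero, div_one] at g2
          linarith
        obtain ⟨i1, hi1⟩ := Nat.exists_eq_succ_of_ne_zero hne
        have g3 := Nat.find_min hP (m := i1) (by rw [← hi0, hi1]; exact Nat.lt_succ_self _)
        refine ⟨i1, ?_, ?_, Or.inr ?_⟩
        · have : i1 < i0 := by rw [hi1]; exact Nat.lt_succ_self _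
          exact (this.le).trans g1
        · by_contra hcon
          refine g3 ⟨?_, not_le.1 hcon⟩
          have : i1 < i0 := by rw [hi1]; exact Nat.lt_succ_self _
          exact (this.le).trans g1
        · rw [← hi0, hi1] at g2
          exact g2
    obtain ⟨i, hij, hdi, hi⟩ := hex
    refine ⟨i, hij, hdi, ?_⟩
    rcases hi with hi | hi
    · subst hi
      have h3 := up1 1 zero_le_one (by
        rw [Real.exp_le_one_iff]
        have : 0 ≤ dist y z ^ 2 / (A * s) := by positivity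
        linarith)
      rw [mul_one] at h3
      refine h3.trans ?_
      rw [Nat.sub_self, pow_zero, mul_one]
      have h4 : A * E ≤ A ^ 2 * E ^ 2 * (1 + C1 + C2) := by
        have h5 : A * E ≤ A ^ 2 * E ^ 2 := by
          have : A * 1 * (E * 1) ≤ A * A * (E * E) := by gcongr
          nlinarith
        have h6 : A ^ 2 * E ^ 2 * 1 ≤ A ^ 2 * E ^ 2 * (1 + C1 + C2) := by
          gcongr; linarith
        linarith
      gcongr
    · -- `r_{i+1} < d`
      have hlt : i ≤ j := hij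
      set k := j - i with hk
      have hjk : j = i + k := by omega
      have hri : r0 / Λ ^ j = r0 / Λ ^ i / Λ ^ k := by
        rw [hjk, pow_add, div_div]
      have hexp : exp (-(dist y z ^ 2 / (A * s))) ≤ exp (-(1 / (A * Γ * Λ ^ 2) * Λ ^ (2 * k))) := by
        apply Real.exp_le_exp.2
        have g1 : r0 / Λ ^ (i + 1) ≤ dist y z := hi.le
        have g2 : (r0 / Λ ^ (i + 1)) ^ 2 ≤ dist y z ^ 2 := by gcongr
        have g3 : (r0 / Λ ^ (i + 1)) ^ 2 / (A * (Γ * (r0 / Λ ^ j) ^ 2)) ≤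
            dist y z ^ 2 / (A * s) := by gcongr
        have g4 : (r0 / Λ ^ (i + 1)) ^ 2 / (A * (Γ * (r0 / Λ ^ j) ^ 2))
            = 1 / (A * Γ * Λ ^ 2) * Λ ^ (2 * k) := by
          rw [hjk]
          field_simp
          ring
        linarith
      have h3 := up1 _ (Real.exp_pos _).le hexp
      have h4 := h1 k
      have h5 : A * E * ((r0 / Λ ^ j) ^ n)⁻¹ * exp (-(1 / (A * Γ * Λ ^ 2) * Λ ^ (2 * k)))
          = A * E * ((r0 / Λ ^ i) ^ n)⁻¹ *
            (Λ ^ (n * k) * exp (-(1 / (A * Γ * Λ ^ 2) * Λ ^ (2 * k)))) := by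
        rw [hri, div_pow (r0 / Λ ^ i) (Λ ^ k) n, inv_div, ← pow_mul, mul_comm k n]
        field_simp
      rw [h5] at h3
      refine h3.trans ?_
      have h6 : A * E * C1 ≤ A ^ 2 * E ^ 2 * (1 + C1 + C2) := by
        have h7 : A * E ≤ A ^ 2 * E ^ 2 := by
          have : A * 1 * (E * 1) ≤ A * A * (E * E) := by gcongr
          nlinarith
        calc A * E * C1 ≤ A ^ 2 * E ^ 2 * C1 := by gcongr
          _ ≤ A ^ 2 * E ^ 2 * (1 + C1 + C2) := by gcongr; linarith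
      calc A * E * ((r0 / Λ ^ i) ^ n)⁻¹ *
            (Λ ^ (n * k) * exp (-(1 / (A * Γ * Λ ^ 2) * Λ ^ (2 * k))))
          ≤ A * E * ((r0 / Λ ^ i) ^ n)⁻¹ * (C1 * ω ^ k) := by gcongr
        _ = A * E * C1 * ω ^ k * ((r0 / Λ ^ i) ^ n)⁻¹ := by ring
        _ ≤ A ^ 2 * E ^ 2 * (1 + C1 + C2) * ω ^ k * ((r0 / Λ ^ i) ^ n)⁻¹ := by gcongr
  · intro hdr
    have low := h.lower T T0 hT1 y z
    have hsT : 0 < √T := Real.sqrt_pos.2 T0
    -- lower bound
    have hEi : E⁻¹ ≤ exp (-(A * dist y o)) := by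
      rw [Real.exp_neg]
      exact inv_anti₀ (Real.exp_pos _) hy
    have low1 : A⁻¹ * E⁻¹ * (√T ^ n)⁻¹ * exp (-(A * dist y z ^ 2 / T)) ≤ p T y z := by
      refine le_trans ?_ low
      gcongr
    have low2 : exp (-(A * dist y z ^ 2 / T)) ≤ A * E * √T ^ n * p T y z := by
      have := mul_le_mul_of_nonneg_left low1 (show 0 ≤ A * E * √T ^ n by positivity)
      have e : A * E * √T ^ n * (A⁻¹ * E⁻¹ * (√T ^ n)⁻¹ * exp (-(A * dist y z ^ 2 / T)))
          = exp (-(A * dist y z ^ 2 / T)) := by field_simp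
      rwa [e] at this
    have hexp : exp (-(dist y z ^ 2 / (A * s))) ≤
        exp (-(1 / (2 * A * Γ) * Λ ^ (2 * j))) * exp (-(A * dist y z ^ 2 / T)) := by
      rw [← Real.exp_add]
      apply Real.exp_le_exp.2
      have g1 : r0 ^ 2 ≤ dist y z ^ 2 := by gcongr
      have g2 : A * dist y z ^ 2 / T ≤ dist y z ^ 2 / (2 * A * s) := by
        rw [div_le_div_iff₀ T0 (by positivity)]
        calc A * dist y z ^ 2 * (2 * A * s) = dist y z ^ 2 * (2 * A ^ 2 * s) := by ring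
          _ ≤ dist y z ^ 2 * T := by gcongr
      have g3 : 1 / (2 * A * Γ) * Λ ^ (2 * j) ≤ dist y z ^ 2 / (2 * A * s) := by
        have g4 : r0 ^ 2 / (2 * A * (Γ * (r0 / Λ ^ j) ^ 2)) ≤ dist y z ^ 2 / (2 * A * s) := by
          gcongr
        have g5 : r0 ^ 2 / (2 * A * (Γ * (r0 / Λ ^ j) ^ 2))
            = 1 / (2 * A * Γ) * Λ ^ (2 * j) := by
          field_simp
          ring
        linarith
      have g6 : dist y z ^ 2 / (A * s) = dist y z ^ 2 / (2 * A * s) + dist y z ^ 2 / (2 * A * s) := by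
        field_simp
        ring
      linarith
    have h3 := up1 _ (by positivity) hexp
    have h4 := h2 j
    have hpT : 0 ≤ p T y z := (h.p_pos T0 hT1 y z).le
    calc p s y z ≤ A * E * ((r0 / Λ ^ j) ^ n)⁻¹ *
          (exp (-(1 / (2 * A * Γ) * Λ ^ (2 * j))) * exp (-(A * dist y z ^ 2 / T))) := h3
      _ ≤ A * E * ((r0 / Λ ^ j) ^ n)⁻¹ *
          (exp (-(1 / (2 * A * Γ) * Λ ^ (2 * j))) * (A * E * √T ^ n * p T y z)) := by gcongr
      _ = A ^ 2 * E ^ 2 * (√T / r0) ^ n *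
          (Λ ^ (n * j) * exp (-(1 / (2 * A * Γ) * Λ ^ (2 * j)))) * p T y z := by
          rw [div_pow r0 (Λ ^ j) n, inv_div, ← pow_mul, mul_comm j n, div_pow]
          field_simp
      _ ≤ A ^ 2 * E ^ 2 * (√T / r0) ^ n * (C2 * ω ^ j) * p T y z := by gcongr
      _ = A ^ 2 * E ^ 2 * C2 * ω ^ j * (√T / r0) ^ n * p T y z := by ring
      _ ≤ A ^ 2 * E ^ 2 * (1 + C1 + C2) * ω ^ j * (√T / r0) ^ n * p T y z := by
          gcongr; linarith

end Vale.Agent.P242.H363
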