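import Vale.Agent.P242.H363.Prof
import Vale.Agent.P242.H363.KW1
import Vale.Agent.P242.H358.Key
import Vale.Agent.P242.H990.Ph

/-! P242, package A-RAD, file KW2: the form tested with the kernel is dominated by the forms tested
with the radial weights `X_i` (field (K) of the discrete core). -/

set_option linter.all false

open MeasureTheory Filter Topology Set
open scoped ENNReal NNReal

universe u

namespace Vale.Agent.P242.H363

open Vale.Agent.P233 Vale.Agent.P242.H990 Vale.Agent.P242.H520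

section gen
variable {M : Type*} [MeasurableSpace M] {m : Measure M} {C : Calc m}

theorem sum_ae3 {ι : Type*} (s : Finset ι) (F : ι → M →ₘ[m] ℝ) :
    ⇑(∑ i ∈ s, F i : M →ₘ[m] ℝ) =ᵐ[m] fun x => ∑ i ∈ s, F i x := by
  classical
  induction s using Finset.induction_on with
  | empty => simpa using zero_ae (M := M) (m := m)
  | insert i s hi ih =>
    rw [Finset.sum_insert hi]
    filter_upwards [add_ae (F i) (∑ i ∈ s, F i : M →ₘ[m] ℝ), ih] with x h1 h2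
    rw [h1, h2, Finset.sum_insert hi]

theorem csum_ae {ι : Type*} (s : Finset ι) (c : ι → ℝ) (F : ι → M →ₘ[m] ℝ) :
    ⇑(∑ i ∈ s, c i • F i : M →ₘ[m] ℝ) =ᵐ[m] fun x => ∑ i ∈ s, c i * F i x := by
  classical
  induction s using Finset.induction_on with
  | empty => simpa using zero_ae (M := M) (m := m)
  | insert i s hi ih =>
    rw [Finset.sum_insert hi]
    filter_upwards [add_ae (c i • F i) (∑ i ∈ s, c i • F i : M →ₘ[m] ℝ), ih, smul_ae (F i) (c i)]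
      with x h1 h2 h3
    rw [h1, h2, h3, Finset.sum_insert hi]

theorem NN_csum (hC : IsGamma C) {K : ℝ} (hB : C.BEi K) {f g : M →ₘ[m] ℝ} (hf : f ∈ C.Test)
    (hg : g ∈ C.Test) {ι : Type*} (s : Finset ι) (c : ι → ℝ) {F : ι → M →ₘ[m] ℝ}
    (hF : ∀ i ∈ s, F i ∈ C.A) :
    C.NN K f g (∑ i ∈ s, c i • F i) = ∑ i ∈ s, c i * C.NN K f g (F i) := by
  classical
  induction s using Finset.induction_on with
  | empty =>
    have h := hC.NN_smul_φ hB (0 : ℝ) hf hg hC.toIsDir.A_zero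
    rw [zero_smul, zero_mul] at h
    simpa using h
  | insert a s ha ih =>
    have h1 : ∀ i ∈ s, F i ∈ C.A := fun i hi => hF i (Finset.mem_insert_of_mem hi)
    have h2 := hF a (Finset.mem_insert_self a s)
    rw [Finset.sum_insert ha, Finset.sum_insert ha, hC.NN_add_φ hB hf hg
      (hC.toIsDir.A_smul _ h2) (H358.A_sum hC.toIsDir s fun i hi => hC.toIsDir.A_smul _ (h1 i hi)),
      ih h1, hC.NN_smul_φ hB _ hf hg h2]

end gen

theorem K_real {n j : ℕ} {c ξ ω Λ Γ r0 s T NT : ℝ} {N : ℕ → ℝ} (hΛ : 1 < Λ) (hΓ : 1 ≤ Γ)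
    (hω : 0 < ω)
    (hr0 : 0 < r0) (hc : 0 < c) (hξ : 0 < ξ) (s0 : 0 < s) (hN : ∀ i, i ≤ j → 0 ≤ N i) (hNT : 0 ≤ NT)
    (hs2 : s ≤ Γ * (r0 / Λ ^ j) ^ 2) (sT : s ≤ T) :
    s * (∑ i ∈ Finset.range (j + 1), c / ξ * ω ^ (j - i) * ((r0 / Λ ^ i) ^ (n + 2))⁻¹ * N i
        + c * ω ^ j * (√T / r0) ^ n * NT) ≤
      Γ * (c / ξ) * ∑ i ∈ Finset.range (j + 1), ω ^ (j - i) * (((r0 / Λ ^ i) ^ n)⁻¹ * N i)
          + c * (√T / r0) ^ n * ω ^ j * (T * NT) := by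
  have hΛ0 : 0 < Λ := by linarith
  have T0 : 0 < T := lt_of_lt_of_le s0 sT
  have hΓ0 : 0 < Γ := by linarith
  rw [mul_add, Finset.mul_sum]
  set S : ℝ := ∑ i ∈ Finset.range (j + 1), ω ^ (j - i) * (((r0 / Λ ^ i) ^ n)⁻¹ * N i) with hS
  have b1 : ∑ i ∈ Finset.range (j + 1), s * (c / ξ * ω ^ (j - i) * ((r0 / Λ ^ i) ^ (n + 2))⁻¹ *
          N i) ≤ Γ * (c / ξ) * S := by
    rw [hS, Finset.mul_sum]
    refine Finset.sum_le_sum fun i hi => ?_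
    have hij : i ≤ j := Nat.lt_succ_iff.1 (Finset.mem_range.1 hi)
    have ri : 0 < r0 / Λ ^ i := by positivity
    have hNi := hN i hij
    have hji : r0 / Λ ^ j ≤ r0 / Λ ^ i := by
      have : Λ ^ i ≤ Λ ^ j := pow_le_pow_right₀ hΛ.le hij
      gcongr
    have hsi : s ≤ Γ * (r0 / Λ ^ i) ^ 2 := hs2.trans (by gcongr)
    have e : Γ * (c / ξ) * (ω ^ (j - i) * (((r0 / Λ ^ i) ^ n)⁻¹ * N i))
        = (Γ * (r0 / Λ ^ i) ^ 2) * (c / ξ * ω ^ (j - i) * ((r0 / Λ ^ i) ^ (n + 2))⁻¹ *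
          N i) := by
      rw [pow_add]
      field_simp
    rw [e]
    gcongr
  have b2 : s * (c * ω ^ j * (√T / r0) ^ n * NT)
      ≤ c * (√T / r0) ^ n * ω ^ j * (T * NT) := by
    calc s * (c * ω ^ j * (√T / r0) ^ n * NT)
        ≤ T * (c * ω ^ j * (√T / r0) ^ n * NT) := by gcongr
      _ = _ := by ring
  exact add_le_add b1 b2

section K
variable {M : Type u} [MetricSpace M] [MeasurableSpace M] {m : Measure M} {p : ℝ → M → M → ℝ}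
  {n : ℕ} {o : M} {A κ : ℝ}

/-- (K), form version -/
theorem K_exp (hC : IsGamma (sob m)) (hB : (sob m).BEi κ) (hp : Ker0 m p) (hk : KB n o A p)
    {y : M} {s T r0 Λ ω c ξ : ℝ} {j : ℕ} (hs : 0 < s) (hT : 0 < T) (hT1 : T ≤ 1 / 2)
    (hr0 : 0 < r0) (hΛ : 0 < Λ) (hω : 0 < ω) (hc : 0 < c) (hξ : 0 < ξ)
    (dom : ∀ z : M, (dist y z ≤ r0 → ∃ i, i ≤ j ∧ dist y z ≤ r0 / Λ ^ i ∧
        p s y z ≤ c * ω ^ (j - i) * ((r0 / Λ ^ i) ^ n)⁻¹) ∧
      (r0 < dist y z → p s y z ≤ c * ω ^ j * (√T / r0) ^ n * p T y z))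
    {X : ℕ → M →ₘ[m] ℝ} (hXA : ∀ i, i ≤ j → X i ∈ (sob m).A)
    (hX0 : ∀ i, i ≤ j → ∀ᵐ z ∂m, 0 ≤ X i z)
    (hX1 : ∀ i, i ≤ j → ∀ᵐ z ∂m, dist y z ≤ r0 / Λ ^ i → ξ * (r0 / Λ ^ i) ^ 2 ≤ X i z)
    {f : M →ₘ[m] ℝ} (hf : f ∈ (sob m).Test) :
    (sob m).NN κ f f (ph m p s y) ≤
      ∑ i ∈ Finset.range (j + 1), c / ξ * ω ^ (j - i) * ((r0 / Λ ^ i) ^ (n + 2))⁻¹ *
          (sob m).NN κ f f (X i)
        + c * ω ^ j * (√T / r0) ^ n * (sob m).NN κ f f (ph m p T y) := by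
  set a : ℕ → ℝ := fun i => c / ξ * ω ^ (j - i) * ((r0 / Λ ^ i) ^ (n + 2))⁻¹ with ha
  have ha0 : ∀ i, 0 ≤ a i := fun i => by rw [ha]; positivity
  set b : ℝ := c * ω ^ j * (√T / r0) ^ n with hb
  have hb0 : 0 ≤ b := by positivity
  have hXA' : ∀ i ∈ Finset.range (j + 1), X i ∈ (sob m).A := fun i hi =>
    hXA i (Nat.lt_succ_iff.1 (Finset.mem_range.1 hi))
  have hS : ∑ i ∈ Finset.range (j + 1), a i • X i ∈ (sob m).A :=
    H358.A_sum hC.toIsDir _ fun i hi => hC.toIsDir.A_smul _ (hXA' i hi)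
  have hTA := ph_A hC hp hk hT y
  have hbT := hC.toIsDir.A_smul b hTA
  have hZ := hC.toIsDir.A_add hS hbT
  have hle : ph m p s y ≤ ∑ i ∈ Finset.range (j + 1), a i • X i + b • ph m p T y := by
    rw [← AEEqFun.coeFn_le]
    have hX0' : ∀ᵐ z ∂m, ∀ i ∈ Finset.range (j + 1), 0 ≤ X i z := by
      rw [Filter.eventually_all_finset]
      exact fun i hi => hX0 i (Nat.lt_succ_iff.1 (Finset.mem_range.1 hi))
    have hX1' : ∀ᵐ z ∂m, ∀ i ∈ Finset.range (j + 1), dist y z ≤ r0 / Λ ^ i →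
        ξ * (r0 / Λ ^ i) ^ 2 ≤ X i z := by
      rw [Filter.eventually_all_finset]
      exact fun i hi => hX1 i (Nat.lt_succ_iff.1 (Finset.mem_range.1 hi))
    filter_upwards [add_ae (∑ i ∈ Finset.range (j + 1), a i • X i) (b • ph m p T y),
      csum_ae (m := m) (Finset.range (j + 1)) a X, smul_ae (ph m p T y) b, ph_ae hp hs y,
      ph_ae hp hT y, hX0', hX1'] with z h1 h2 h3 h4 h5 h6 h7
    rw [h1, h2, h3, h4, h5]
    have hpT : 0 ≤ p T y z := hp.nonneg T hT y z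
    have hsum0 : 0 ≤ ∑ i ∈ Finset.range (j + 1), a i * X i z :=
      Finset.sum_nonneg fun i hi => mul_nonneg (ha0 i) (h6 i hi)
    rcases le_or_gt (dist y z) r0 with hd | hd
    · obtain ⟨i, hij, hdi, hpi⟩ := (dom z).1 hd
      have hi : i ∈ Finset.range (j + 1) := Finset.mem_range.2 (Nat.lt_succ_iff.2 hij)
      have g1 := h7 i hi hdi
      have ri : 0 < r0 / Λ ^ i := by positivity
      have g2 : c * ω ^ (j - i) * ((r0 / Λ ^ i) ^ n)⁻¹ ≤ a i * X i z := by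
        have e : c * ω ^ (j - i) * ((r0 / Λ ^ i) ^ n)⁻¹ = a i * (ξ * (r0 / Λ ^ i) ^ 2) := by
          simp only [ha]
          rw [pow_add]
          field_simp
        rw [e]
        exact mul_le_mul_of_nonneg_left g1 (ha0 i)
      have g3 : a i * X i z ≤ ∑ i ∈ Finset.range (j + 1), a i * X i z :=
        Finset.single_le_sum (f := fun i => a i * X i z)
          (fun i hi => mul_nonneg (ha0 i) (h6 i hi)) hi
      have g4 : 0 ≤ b * p T y z := mul_nonneg hb0 hpT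
      linarith
    · have g1 := (dom z).2 hd
      linarith
  have h1 := NN_mono hC hB hf (ph_A hC hp hk hs y) hZ hle
  rw [hC.NN_add_φ hB hf hf hS hbT, NN_csum hC hB hf hf _ a hXA', hC.NN_smul_φ hB b hf hf hTA] at h1
  exact h1

/-- (K): for `s` in `[t_j, Γ t_j]`,
`s gam_s(f,f) ≤ C ∑_{i ≤ j} ω^(j-i) r_i^{-n} NN(f,f)(X_i) + C (√T/r_0)^n ω^j T gam_T(f,f)`, provided
`X_i ≥ ξ r_i²` on the ball of radius `r_i`. -/
theorem K_gam (n : ℕ) {A Λ Γ ω E ξ : ℝ} (hA : 1 ≤ A) (hΛ : 1 < Λ) (hΓ : 1 ≤ Γ) (hω : 0 < ω)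
    (hE : 1 ≤ E) (hξ : 0 < ξ) :
    ∃ c : ℝ, 0 < c ∧ ∀ {M : Type u} [MetricSpace M] [MeasurableSpace M] {m : Measure M} {o : M}
      {p : ℝ → M → M → ℝ} {κ : ℝ}, IsGamma (sob m) → (sob m).BEi κ → Ker0 m p → KB n o A p →
      ∀ (y : M), Real.exp (A * dist y o) ≤ E → ∀ (r0 T : ℝ), 0 < r0 →
      2 * A ^ 2 * Γ * r0 ^ 2 ≤ T → T ≤ 1 / 2 → ∀ (j : ℕ) (s : ℝ),
      (r0 / Λ ^ j) ^ 2 ≤ s → s ≤ Γ * (r0 / Λ ^ j) ^ 2 →
      ∀ X : ℕ → M →ₘ[m] ℝ, (∀ i, i ≤ j → X i ∈ (sob m).A) →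
      (∀ i, i ≤ j → ∀ᵐ z ∂m, 0 ≤ X i z) →
      (∀ i, i ≤ j → ∀ᵐ z ∂m, dist y z ≤ r0 / Λ ^ i → ξ * (r0 / Λ ^ i) ^ 2 ≤ X i z) →
      ∀ f : M →ₘ[m] ℝ, f ∈ (sob m).Test →
      s * (sob m).NN κ f f (ph m p s y) ≤
        c * ∑ i ∈ Finset.range (j + 1), ω ^ (j - i) *
            (((r0 / Λ ^ i) ^ n)⁻¹ * (sob m).NN κ f f (X i))
          + c * (√T / r0) ^ n * ω ^ j * (T * (sob m).NN κ f f (ph m p T y)) := by
  obtain ⟨c, hc, dom⟩ := ker_dom n hA hΛ hΓ hω hE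
  have hΓ0 : 0 < Γ := by linarith
  refine ⟨Γ * (c / ξ) + c, by positivity, ?_⟩
  intro M _ _ m o p κ hC hB hp hk y hy r0 T hr0 hT hT1 j s hs1 hs2 X hXA hX0 hX1 f hf
  have hΛ0 : 0 < Λ := by linarith
  have hA0 : 0 < A := by linarith
  have T0 : 0 < T := lt_of_lt_of_le (by positivity) hT
  have rj : 0 < r0 / Λ ^ j := by positivity
  have s0 : 0 < s := lt_of_lt_of_le (by positivity) hs1
  have h := K_exp hC hB hp hk (κ := κ) s0 T0 hT1 hr0 hΛ0 hω hc hξ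
    (dom hk y hy r0 T hr0 hT hT1 j s hs1 hs2) hXA hX0 hX1 hf
  have N0 : ∀ i, i ≤ j → 0 ≤ (sob m).NN κ f f (X i) := fun i hi =>
    hC.NN_nonneg hB hf (hXA i hi) (nonneg_iff_ae.2 (hX0 i hi))
  have NT : 0 ≤ (sob m).NN κ f f (ph m p T y) :=
    hC.NN_nonneg hB hf (ph_A hC hp hk T0 y) (ph_nonneg hp T0 y)
  have sT : s ≤ T := by
    refine hs2.trans ?_
    have hΛj : (1 : ℝ) ≤ Λ ^ j := one_le_pow₀ hΛ.le
    have rj1 : r0 / Λ ^ j ≤ r0 := div_le_self hr0.le hΛj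
    have hA2 : 1 ≤ A ^ 2 := one_le_pow₀ hA
    calc Γ * (r0 / Λ ^ j) ^ 2 ≤ Γ * r0 ^ 2 := by gcongr
      _ = 1 * (Γ * r0 ^ 2) := by ring
      _ ≤ (2 * A ^ 2) * (Γ * r0 ^ 2) := by gcongr; linarith
      _ = 2 * A ^ 2 * Γ * r0 ^ 2 := by ring
      _ ≤ T := hT
  have h1 := (mul_le_mul_of_nonneg_left h s0.le).trans
    (K_real (n := n) (N := fun i => (sob m).NN κ f f (X i)) hΛ hΓ hω hr0 hc hξ s0 N0 NT hs2 sT)
  refine h1.trans ?_
  have S0 : 0 ≤ ∑ i ∈ Finset.range (j + 1), ω ^ (j - i) *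
      (((r0 / Λ ^ i) ^ n)⁻¹ * (sob m).NN κ f f (X i)) := Finset.sum_nonneg fun i hi => by
    have := N0 i (Nat.lt_succ_iff.1 (Finset.mem_range.1 hi))
    have ri : 0 < r0 / Λ ^ i := by positivity
    positivity
  have q1 : Γ * (c / ξ) ≤ Γ * (c / ξ) + c := by linarith
  have q2 : c ≤ Γ * (c / ξ) + c := by
    have : 0 ≤ Γ * (c / ξ) := by positivity
    linarith
  refine add_le_add (mul_le_mul_of_nonneg_right q1 S0) ?_
  have q3 : 0 ≤ √T / r0 := by positivity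
  gcongr

end K

end Vale.Agent.P242.H363
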