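import Vale.Agent.P242.H363.QQ

/-! P242, package A-RAD, file 2: exact identities with radial weights `Φ(b + c₀)`. No kernel. -/

set_option linter.all false

open MeasureTheory Filter Topology Set
open scoped ENNReal NNReal

namespace Vale.Agent.P242.H363

open Vale.Agent.P233

variable {M : Type*} [MeasurableSpace M] {m : Measure M} {C : Calc m}

/-- `p = φ(b + c₀)` almost everywhere -/
def Cm (b : M →ₘ[m] ℝ) (c0 : ℝ) (φ : ℝ → ℝ) (p : M →ₘ[m] ℝ) : Prop :=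
  ∀ᵐ x ∂m, p x = φ (b x + c0)

namespace Cm
variable {b p p' q : M →ₘ[m] ℝ} {c0 : ℝ} {φ φ' χ : ℝ → ℝ}

theorem ex (b : M →ₘ[m] ℝ) (c0 : ℝ) (hφ : Continuous φ) : ∃ p, Cm b c0 φ p := by
  have hc : Continuous fun t : ℝ => φ (t + c0) := hφ.comp (continuous_id.add continuous_const)
  refine ⟨AEEqFun.comp (fun t : ℝ => φ (t + c0)) hc b, ?_⟩
  filter_upwards [AEEqFun.coeFn_comp (fun t : ℝ => φ (t + c0)) hc b] with x hx
  rw [hx]; rfl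

theorem uniq (hp : Cm b c0 φ p) (hq : Cm b c0 φ q) : p = q := by
  rw [eq_iff_ae]
  filter_upwards [hp, hq] with x h1 h2
  rw [h1, h2]

theorem congr (hp : Cm b c0 φ p) (h : ∀ t, φ t = χ t) : Cm b c0 χ p := by
  filter_upwards [hp] with x h1
  rw [h1, h]

theorem add (hp : Cm b c0 φ p) (hq : Cm b c0 χ q) : Cm b c0 (fun t => φ t + χ t) (p + q) := by
  filter_upwards [hp, hq, add_ae p q] with x h1 h2 h3
  rw [h3, h1, h2]

theorem smul (c : ℝ) (hp : Cm b c0 φ p) : Cm b c0 (fun t => c * φ t) (c • p) := by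
  filter_upwards [hp, smul_ae p c] with x h1 h2
  rw [h2, h1]

theorem mul (hp : Cm b c0 φ p) (hq : Cm b c0 χ q) : Cm b c0 (fun t => φ t * χ t) (p * q) := by
  filter_upwards [hp, hq, mul_ae p q] with x h1 h2 h3
  rw [h3, h1, h2]

theorem id : Cm b c0 (fun t => t) (b + c0 • 1) := by
  filter_upwards [add_ae b (c0 • 1), smul_ae (1 : M →ₘ[m] ℝ) c0, one_ae (M := M) (m := m)]
    with x h1 h2 h3
  rw [h1, h2, h3, mul_one]

/-- chain rule -/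
theorem memA (hC : IsDir C) (hb : b ∈ C.A) (hd : ∀ t, HasDerivAt φ (φ' t) t)
    (hc' : Continuous φ') (h0 : φ c0 = 0) (hp : Cm b c0 φ p) (hp' : Cm b c0 φ' p') :
    p ∈ C.A ∧ ∀ h ∈ C.W, C.Γ p h = p' * C.Γ b h := by
  have hc : Continuous φ := continuous_iff_continuousAt.2 fun t => (hd t).continuousAt
  have k1 : Continuous fun t : ℝ => φ (t + c0) := hc.comp (continuous_id.add continuous_const)
  have k2 : Continuous fun t : ℝ => φ' (t + c0) := hc'.comp (continuous_id.add continuous_const)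
  have kd : ∀ t, HasDerivAt (fun t : ℝ => φ (t + c0)) (φ' (t + c0)) t := fun t =>
    (hd (t + c0)).comp_add_const t c0
  obtain ⟨g, gA, ge, gΓ⟩ := hC.ti_comp hb k1 k2 kd
  have e0 : AEEqFun.comp (fun t : ℝ => φ (t + c0)) k1 b = g := by
    rw [ge]
    simp only [zero_add, h0, zero_smul]
  have e1 : p = g := by
    rw [← e0, eq_iff_ae]
    filter_upwards [hp, AEEqFun.coeFn_comp (fun t : ℝ => φ (t + c0)) k1 b] with x h1 h2
    rw [h1, h2]; rfl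
  have e2 : p' = AEEqFun.comp (fun t : ℝ => φ' (t + c0)) k2 b := by
    rw [eq_iff_ae]
    filter_upwards [hp', AEEqFun.coeFn_comp (fun t : ℝ => φ' (t + c0)) k2 b] with x h1 h2
    rw [h1, h2]; rfl
  rw [e1, e2]
  exact ⟨gA, gΓ⟩

end Cm

section ident
variable (hC : IsGamma C) {κ n c0 : ℝ}
variable {b u v F p p' p'' μ q e : M →ₘ[m] ℝ} {φ φ' φ'' φ''' Ξ : ℝ → ℝ}
include hC

theorem lapI (hb : b ∈ C.Test) {h : M →ₘ[m] ℝ} (hh : h ∈ C.W) :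
    I (C.Γ b h) = -I (C.lap b * h) := (hC.test_isLap hb).2.2 _ hh

/-- integration by parts: `∫ p ⟨∇b,∇F⟩ = -∫ F (p Δb + p' |∇b|²)` -/
theorem rad_ibp (hb : b ∈ C.Test) (hp : p ∈ C.A) (hΓ : ∀ h ∈ C.W, C.Γ p h = p' * C.Γ b h)
    (hF : F ∈ C.A) :
    I (p * C.Γ b F) = -I (F * (p * C.lap b)) - I (F * (p' * C.Γ b b)) := by
  have bA := hC.test_A hb
  have h1 := lapI hC hb (hC.toIsDir.mul_mem_A hp hF).1
  rw [hC.Γ_mul_right hp hF bA.1, hC.symm _ bA.1 _ hp.1, hΓ _ bA.1] at h1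
  have m1 : MemLp (p * C.Γ b F) 1 m := mem_mul_top hp.2 (hC.Γ_mem1 bA.1 hF.1)
  have m2 : MemLp (F * (p' * C.Γ b b)) 1 m := by
    refine mem_mul_top hF.2 ?_
    rw [← hΓ _ bA.1]
    exact hC.Γ_mem1 hp.1 bA.1
  rw [I_add m1 m2] at h1
  have e1 : C.lap b * (p * F) = F * (p * C.lap b) := by ring
  rw [e1] at h1
  linarith

/-- (a): with `Δb = n - μ`, `|∇b|² = 2(b+c₀) + q` -/
theorem rad_a (hb : b ∈ C.Test) (hp : p ∈ C.A) (hΓ : ∀ h ∈ C.W, C.Γ p h = p' * C.Γ b h)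
    (hp' : p' ∈ C.A) (hF : F ∈ C.A)
    (hμ : C.lap b = n • 1 - μ) (hq : C.Γ b b = (2 : ℝ) • (b + c0 • 1) + q) :
    I (p * C.Γ b F) = -I (F * (n • p + (2 : ℝ) • ((b + c0 • 1) * p'))) + I (F * p * μ)
      - I (F * p' * q) := by
  have bA := hC.test_A hb
  have bT := hC.test_Γ_top hb
  have bL := hC.memLp _ (hC.test_lap_mem hb)
  have p2 := hC.memLp _ hp.1
  have p'2 := hC.memLp _ hp'.1
  rw [rad_ibp hC hb hp hΓ hF]
  have eμ : μ = n • 1 - C.lap b := by rw [hμ]; abel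
  have eq' : q = C.Γ b b - (2 : ℝ) • (b + c0 • 1) := by rw [hq]; abel
  have hB : MemLp (b + c0 • 1 : M →ₘ[m] ℝ) ∞ m := mem_add bA.2 (mem_smul _ mem_top_one)
  have hFp : MemLp (F * p : M →ₘ[m] ℝ) 1 m := mem_mul_22 (hC.memLp _ hF.1) p2
  have hFp' : MemLp (F * p' : M →ₘ[m] ℝ) 1 m := mem_mul_22 (hC.memLp _ hF.1) p'2
  have m1 : MemLp (F * (n • p + (2 : ℝ) • ((b + c0 • 1) * p')) : M →ₘ[m] ℝ) 1 m := by
    have : F * (n • p + (2 : ℝ) • ((b + c0 • 1) * p')) = n • (F * p)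
      + (2 : ℝ) • ((b + c0 • 1) * (F * p')) := by algebra
    rw [this]
    exact mem_add (mem_smul _ hFp) (mem_smul _ (mem_mul_top hB hFp'))
  have m2 : MemLp (F * p * μ : M →ₘ[m] ℝ) 1 m := by
    have : F * p * μ = n • (F * p) - F * (p * C.lap b) := by rw [eμ]; algebra
    rw [this]
    exact mem_sub (mem_smul _ hFp) (mem_mul_top hF.2 (mem_mul_22 p2 bL))
  have m3 : MemLp (F * p' * q : M →ₘ[m] ℝ) 1 m := by
    have : F * p' * q = C.Γ b b * (F * p') - (2 : ℝ) • ((b + c0 • 1) * (F * p')) := by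
      rw [eq']; algebra
    rw [this]
    exact mem_sub (mem_mul_top bT hFp') (mem_smul _ (mem_mul_top hB hFp'))
  have m4 : MemLp (F * (p * C.lap b) : M →ₘ[m] ℝ) 1 m := mem_mul_top hF.2 (mem_mul_22 p2 bL)
  have m5 : MemLp (F * (p' * C.Γ b b) : M →ₘ[m] ℝ) 1 m := by
    have : F * (p' * C.Γ b b) = C.Γ b b * (F * p') := by ring
    rw [this]; exact mem_mul_top bT hFp'
  rw [← I_neg, ← I_sub (mem_neg m4) m5, ← I_neg, ← I_add (mem_neg m1) m2,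
    ← I_sub (mem_add (mem_neg m1) m2) m3]
  congr 1
  rw [hμ, hq]
  algebra
end ident

/-- a radial weight `P0` with its first two derivatives: `P0 = φ(b+c₀)`, `P1 = φ'(b+c₀)`,
`P2 = φ''(b+c₀)` -/
structure RP (C : Calc m) (b P0 P1 P2 : M →ₘ[m] ℝ) : Prop where
  mem0 : P0 ∈ C.A
  mem1 : P1 ∈ C.A
  mem2 : P2 ∈ C.A
  g0 : ∀ h ∈ C.W, C.Γ P0 h = P1 * C.Γ b h
  g1 : ∀ h ∈ C.W, C.Γ P1 h = P2 * C.Γ b h

/-- construction of radial weights from a smooth function vanishing at `c₀` with derivatives -/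
theorem RP.of (hC : IsDir C) {b P0 P1 P2 : M →ₘ[m] ℝ} {c0 : ℝ} {φ φ1 φ2 φ3 : ℝ → ℝ}
    (hb : b ∈ C.A) (h0 : ∀ t, HasDerivAt φ (φ1 t) t) (h1 : ∀ t, HasDerivAt φ1 (φ2 t) t)
    (h2 : ∀ t, HasDerivAt φ2 (φ3 t) t) (h3 : Continuous φ3)
    (z0 : φ c0 = 0) (z1 : φ1 c0 = 0) (z2 : φ2 c0 = 0)
    (p0 : Cm b c0 φ P0) (p1 : Cm b c0 φ1 P1) (p2 : Cm b c0 φ2 P2) : RP C b P0 P1 P2 := by
  obtain ⟨P3, p3⟩ := Cm.ex (φ := φ3) b c0 h3
  have c1 : Continuous φ1 := continuous_iff_continuousAt.2 fun t => (h1 t).continuousAt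
  have c2 : Continuous φ2 := continuous_iff_continuousAt.2 fun t => (h2 t).continuousAt
  obtain ⟨a1, a2⟩ := Cm.memA hC hb h0 c1 z0 p0 p1
  obtain ⟨b1, b2⟩ := Cm.memA hC hb h1 c2 z1 p1 p2
  obtain ⟨d1, d2⟩ := Cm.memA hC hb h2 h3 z2 p2 p3
  exact ⟨a1, b1, d1, a2, b2⟩

section ident2
variable (hC : IsGamma C) {κ n c0 : ℝ} (hB : C.BEi κ)
variable {b u v F P0 P1 P2 X0 μ q e : M →ₘ[m] ℝ}
include hC

/-- `(M')`: `∫ ψ ⟨∇u,∇e⟩ = -∫ (e-a)(ψ Δu + ψ' ⟨∇b,∇u⟩)` for every constant `a` -/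
theorem rad_M (hb : b ∈ C.Test) (hP : RP C b P0 P1 P2) (hu : u ∈ C.Test) (he : e ∈ C.A) (a : ℝ) :
    I (P0 * C.Γ u e) = -I ((e - a • 1) * (P0 * C.lap u + P1 * C.Γ b u)) := by
  have bA := hC.test_A hb
  have uA := hC.test_A hu
  have uL := hC.memLp _ (hC.test_lap_mem hu)
  have h1 := lapI hC hu (hC.toIsDir.mul_mem_A hP.mem0 he).1
  have h2 := lapI hC hu hP.mem0.1
  have g : C.Γ u P0 = P1 * C.Γ b u := by
    rw [hC.symm _ uA.1 _ hP.mem0.1, hP.g0 _ uA.1]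
  rw [hC.Γ_mul_right hP.mem0 he uA.1, g] at h1
  rw [g] at h2
  have m0 : MemLp (P1 * C.Γ b u : M →ₘ[m] ℝ) 1 m := mem_mul_top hP.mem1.2 (hC.Γ_mem1 bA.1 uA.1)
  have m1 : MemLp (P0 * C.Γ u e : M →ₘ[m] ℝ) 1 m := mem_mul_top hP.mem0.2 (hC.Γ_mem1 uA.1 he.1)
  have m2 : MemLp (e * (P1 * C.Γ b u) : M →ₘ[m] ℝ) 1 m := mem_mul_top he.2 m0
  have m3 : MemLp (C.lap u * P0 : M →ₘ[m] ℝ) 1 m := mem_mul_22 uL (hC.memLp _ hP.mem0.1)
  have m4 : MemLp (C.lap u * (P0 * e) : M →ₘ[m] ℝ) 1 m :=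
    mem_mul_22 uL (hC.memLp _ (hC.toIsDir.mul_mem_A hP.mem0 he).1)
  rw [I_add m1 m2] at h1
  have e1 : (e - a • 1) * (P0 * C.lap u + P1 * C.Γ b u)
      = C.lap u * (P0 * e) + e * (P1 * C.Γ b u) - a • (C.lap u * P0 + P1 * C.Γ b u) := by algebra
  rw [e1, I_sub (mem_add m4 m2) (mem_smul _ (mem_add m3 m0)), I_smul, I_add m4 m2, I_add m3 m0]
  have h3 : I (C.lap u * P0) = -I (P1 * C.Γ b u) := by linarith
  rw [h3]
  linarith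

include hB

/-- (b): antisymmetry of the commutator -/
theorem rad_b (hb : b ∈ C.Test) (hP : RP C b P0 P1 P2) (hu : u ∈ C.Test) (hv : v ∈ C.Test) :
    I (P0 * C.Γ v (C.Γ b u - u)) - I (P0 * C.Γ u (C.Γ b v - v))
      = -I (P0 * (C.Γ b u * C.lap v)) + I (P0 * (C.Γ b v * C.lap u)) := by
  have bA := hC.test_A hb
  have uA := hC.test_A hu
  have vA := hC.test_A hv
  have uL := hC.memLp _ (hC.test_lap_mem hu)
  have vL := hC.memLp _ (hC.test_lap_mem hv)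
  have bu := hC.Γ_mem hB hb hu
  have bv := hC.Γ_mem hB hb hv
  have k1 := rad_M hC hb hP hv bu 0
  have k2 := rad_M hC hb hP hu bv 0
  have s1 : MemLp (P0 * C.Γ v u : M →ₘ[m] ℝ) 1 m := mem_mul_top hP.mem0.2 (hC.Γ_mem1 vA.1 uA.1)
  have s2 : MemLp (P0 * C.Γ v (C.Γ b u) : M →ₘ[m] ℝ) 1 m :=
    mem_mul_top hP.mem0.2 (hC.Γ_mem1 vA.1 bu.1)
  have s3 : MemLp (P0 * C.Γ u (C.Γ b v) : M →ₘ[m] ℝ) 1 m :=
    mem_mul_top hP.mem0.2 (hC.Γ_mem1 uA.1 bv.1)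
  have s4 : MemLp (P0 * C.Γ u v : M →ₘ[m] ℝ) 1 m := mem_mul_top hP.mem0.2 (hC.Γ_mem1 uA.1 vA.1)
  have e1 : I (P0 * C.Γ v (C.Γ b u - u)) = I (P0 * C.Γ v (C.Γ b u)) - I (P0 * C.Γ v u) := by
    rw [hC.Γ_sub_right vA.1 bu.1 uA.1, mul_sub, I_sub s2 s1]
  have e2 : I (P0 * C.Γ u (C.Γ b v - v)) = I (P0 * C.Γ u (C.Γ b v)) - I (P0 * C.Γ v u) := by
    rw [hC.Γ_sub_right uA.1 bv.1 vA.1, mul_sub, I_sub s3 s4, hC.symm _ uA.1 _ vA.1]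
  have r1 : MemLp (P0 * (C.Γ b u * C.lap v) : M →ₘ[m] ℝ) 1 m :=
    mem_mul_top hP.mem0.2 (mem_mul_22 (hC.memLp _ bu.1) vL)
  have r2 : MemLp (P0 * (C.Γ b v * C.lap u) : M →ₘ[m] ℝ) 1 m :=
    mem_mul_top hP.mem0.2 (mem_mul_22 (hC.memLp _ bv.1) uL)
  have r3 : MemLp (P1 * (C.Γ b u * C.Γ b v) : M →ₘ[m] ℝ) 1 m :=
    mem_mul_top hP.mem1.2 (mem_mul_22 (hC.memLp _ bu.1) (hC.memLp _ bv.1))
  have f1 : (C.Γ b u - (0 : ℝ) • 1) * (P0 * C.lap v + P1 * C.Γ b v)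
      = P0 * (C.Γ b u * C.lap v) + P1 * (C.Γ b u * C.Γ b v) := by algebra
  have f2 : (C.Γ b v - (0 : ℝ) • 1) * (P0 * C.lap u + P1 * C.Γ b u)
      = P0 * (C.Γ b v * C.lap u) + P1 * (C.Γ b u * C.Γ b v) := by algebra
  rw [f1, I_add r1 r3] at k1
  rw [f2, I_add r2 r3] at k2
  rw [e1, e2, k1, k2]
  ring

/-- (R1): weakly `Hess b = g`: `∫ ψ Γ₂(b,F) = ∫ ψ ΔF + errors` -/
theorem rad_NN (hb : b ∈ C.TestI) (hP : RP C b P0 P1 P2) (hF : F ∈ C.TestI)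
    (hμ : C.lap b = n • 1 - μ) (hq : C.Γ b b = (2 : ℝ) • (b + c0 • 1) + q) :
    C.NN κ F b P0 = I (P0 * C.lap F) - I (μ * (P1 * C.Γ b F + P0 * C.lap F))
      + (2 : ℝ)⁻¹ * I (q * (P2 * C.Γ b F + P1 * C.lap F)) - κ * I (P0 * C.Γ b F) := by
  have hD := hC.toIsDir
  have bA := hC.test_A hb.1
  have FA := hC.test_A hF.1
  have bT := hC.test_Γ_top hb.1
  have LbA := hC.testI_lap_A' hb
  have LFA := hC.testI_lap_A' hF
  have GA := hC.Γ_mem hB hb.1 hF.1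
  have P0A := hP.mem0
  have P1A := hP.mem1
  have P2A := hP.mem2
  have gsym : C.Γ F b = C.Γ b F := hC.symm _ FA.1 _ bA.1
  -- integrability of products of two elements of `A`, times bounded
  have L2 : ∀ {f : M →ₘ[m] ℝ}, f ∈ C.A → MemLp f 2 m := fun h => hC.memLp _ h.1
  have I2 : ∀ {f g : M →ₘ[m] ℝ}, f ∈ C.A → g ∈ C.A → MemLp (f * g : M →ₘ[m] ℝ) 1 m :=
    fun h h' => mem_mul_22 (L2 h) (L2 h')
  have hBt : MemLp (b + c0 • 1 : M →ₘ[m] ℝ) ∞ m := mem_add bA.2 (mem_smul _ mem_top_one)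
  have eμ : μ = n • 1 - C.lap b := by rw [hμ]; abel
  have eq' : q = C.Γ b b - (2 : ℝ) • (b + c0 • 1) := by rw [hq]; abel
  have hμt : MemLp μ ∞ m := by rw [eμ]; exact mem_sub (mem_smul _ mem_top_one) LbA.2
  have hqt : MemLp q ∞ m := by rw [eq']; exact mem_sub bT (mem_smul _ hBt)
  -- first term
  have T1 : I (C.Γ (C.Γ F b) P0) = -I (C.Γ b F * (n • P1 + (2 : ℝ) • ((b + c0 • 1) * P2)))
      + I (C.Γ b F * P1 * μ) - I (C.Γ b F * P2 * q) := by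
    rw [gsym, hC.symm _ GA.1 _ P0A.1, hP.g0 _ GA.1]
    exact rad_a hC hb.1 P1A hP.g1 P2A GA hμ hq
  -- second term
  have T2a := lapI hC hF.1 (hD.mul_mem_A P0A LbA).1
  have T2b := lapI hC hF.1 P0A.1
  have gP : C.Γ F P0 = P1 * C.Γ b F := by rw [hC.symm _ FA.1 _ P0A.1, hP.g0 _ FA.1]
  rw [hC.Γ_mul_right P0A LbA FA.1, gP] at T2a
  rw [gP] at T2b
  have j1 : MemLp (P0 * C.Γ F (C.lap b) : M →ₘ[m] ℝ) 1 m :=
    mem_mul_top P0A.2 (hC.Γ_mem1 FA.1 LbA.1)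
  have j2 : MemLp (C.lap b * (P1 * C.Γ b F) : M →ₘ[m] ℝ) 1 m := mem_mul_top LbA.2 (I2 P1A GA)
  rw [I_add j1 j2] at T2a
  have j3 : MemLp (C.lap F * P0 * μ : M →ₘ[m] ℝ) 1 m := mem_top_mul (I2 LFA P0A) hμt
  have j4 : MemLp (μ * (P1 * C.Γ b F) : M →ₘ[m] ℝ) 1 m := mem_mul_top hμt (I2 P1A GA)
  have T2 : I (P0 * C.Γ F (C.lap b)) = I (C.lap F * P0 * μ) + I (μ * (P1 * C.Γ b F)) := by
    have x1 : I (C.lap F * (P0 * C.lap b)) = n * I (C.lap F * P0) - I (C.lap F * P0 * μ) := by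
      rw [← I_smul, ← I_sub (mem_smul _ (I2 LFA P0A)) j3]
      congr 1
      rw [hμ]; algebra
    have x2 : I (C.lap b * (P1 * C.Γ b F)) = n * I (P1 * C.Γ b F) - I (μ * (P1 * C.Γ b F)) := by
      rw [← I_smul, ← I_sub (mem_smul _ (I2 P1A GA)) j4]
      congr 1
      rw [hμ]; algebra
    rw [x1, x2, T2b] at T2a
    linarith
  -- third term
  have T3 := rad_a hC hb.1 P0A hP.g0 P1A LFA hμ hq
  have SA : n • P0 + (2 : ℝ) • ((b + c0 • 1) * P1) ∈ C.A := by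
    have : n • P0 + (2 : ℝ) • ((b + c0 • 1) * P1)
        = n • P0 + (2 : ℝ) • (b * P1) + (2 * c0) • P1 := by algebra
    rw [this]
    exact hD.A_add (hD.A_add (hD.A_smul _ P0A) (hD.A_smul _ (hD.mul_mem_A bA P1A)))
      (hD.A_smul _ P1A)
  have gS : C.Γ F (n • P0 + (2 : ℝ) • ((b + c0 • 1) * P1))
      = ((n + 2) • P1 + (2 : ℝ) • ((b + c0 • 1) * P2)) * C.Γ b F := by
    have e1 : n • P0 + (2 : ℝ) • ((b + c0 • 1) * P1)
        = n • P0 + (2 : ℝ) • (b * P1) + (2 * c0) • P1 := by algebra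
    have bP1 := hD.mul_mem_A bA P1A
    have gP1 : C.Γ F P1 = P2 * C.Γ b F := by rw [hC.symm _ FA.1 _ P1A.1, hP.g1 _ FA.1]
    rw [e1, hC.Γ_add_right FA.1 (hD.add_mem _ (hD.smul_mem _ _ P0A.1) _ (hD.smul_mem _ _ bP1.1))
      (hD.smul_mem _ _ P1A.1), hC.Γ_add_right FA.1 (hD.smul_mem _ _ P0A.1)
      (hD.smul_mem _ _ bP1.1), hC.Γ_smul_right _ FA.1 P0A.1, hC.Γ_smul_right _ FA.1 bP1.1,
      hC.Γ_smul_right _ FA.1 P1A.1, hC.Γ_mul_right bA P1A FA.1, gP, gP1, gsym]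
    algebra
  have T3b := lapI hC hF.1 SA.1
  rw [gS] at T3b
  -- assemble
  have n2 : MemLp (P0 * C.Γ b (C.lap F) : M →ₘ[m] ℝ) 1 m :=
    mem_mul_top P0A.2 (hC.Γ_mem1 bA.1 LFA.1)
  have s1 : MemLp (P1 * C.Γ b F : M →ₘ[m] ℝ) 1 m := I2 P1A GA
  have s2 : MemLp ((b + c0 • 1) * (P2 * C.Γ b F) : M →ₘ[m] ℝ) 1 m := mem_mul_top hBt (I2 P2A GA)
  have U1 : I (C.Γ b F * (n • P1 + (2 : ℝ) • ((b + c0 • 1) * P2)))
      = n * I (P1 * C.Γ b F) + 2 * I ((b + c0 • 1) * (P2 * C.Γ b F)) := by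
    rw [← I_smul, ← I_smul, ← I_add (mem_smul _ s1) (mem_smul _ s2)]
    congr 1
    algebra
  have U2 : I (((n + 2) • P1 + (2 : ℝ) • ((b + c0 • 1) * P2)) * C.Γ b F)
      = (n + 2) * I (P1 * C.Γ b F) + 2 * I ((b + c0 • 1) * (P2 * C.Γ b F)) := by
    rw [← I_smul, ← I_smul, ← I_add (mem_smul _ s1) (mem_smul _ s2)]
    congr 1
    algebra
  have U3 : I (C.Γ b F * P1 * μ) = I (μ * (P1 * C.Γ b F)) := by congr 1; ring
  have U4 : I (μ * (P1 * C.Γ b F + P0 * C.lap F))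
      = I (μ * (P1 * C.Γ b F)) + I (C.lap F * P0 * μ) := by
    rw [← I_add j4 j3]; congr 1; ring
  have w1 : MemLp (C.Γ b F * P2 * q : M →ₘ[m] ℝ) 1 m := mem_top_mul (I2 GA P2A) hqt
  have w2 : MemLp (C.lap F * P1 * q : M →ₘ[m] ℝ) 1 m := mem_top_mul (I2 LFA P1A) hqt
  have U5 : I (q * (P2 * C.Γ b F + P1 * C.lap F))
      = I (C.Γ b F * P2 * q) + I (C.lap F * P1 * q) := by
    rw [← I_add w1 w2]; congr 1; ring
  have U6 : I (P0 * C.lap F) = -I (P1 * C.Γ b F) := by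
    have : I (P0 * C.lap F) = I (C.lap F * P0) := by congr 1; ring
    rw [this]; linarith
  have U7 : I (P0 * (C.Γ F (C.lap b) + C.Γ b (C.lap F)))
      = I (P0 * C.Γ F (C.lap b)) + I (P0 * C.Γ b (C.lap F)) := by
    rw [mul_add, I_add j1 n2]
  have U8 : I (C.lap F * (n • P0 + (2 : ℝ) • ((b + c0 • 1) * P1)))
      = -((n + 2) * I (P1 * C.Γ b F) + 2 * I ((b + c0 • 1) * (P2 * C.Γ b F))) := by
    rw [U2] at T3b; linarith
  unfold Calc.NN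
  rw [U7, T1, T2, T3, U1, U3, U4, U5, U6, U8, gsym]
  ring
/-- the function `(u-c)²/2` up to a constant -/
noncomputable def hsq (u : M →ₘ[m] ℝ) (c : ℝ) : M →ₘ[m] ℝ := (2 : ℝ)⁻¹ • (u * u) - c • u

theorem hsq_testI (hu : u ∈ C.TestI) (c : ℝ) : hsq u c ∈ C.TestI := by
  have e : hsq u c = (2 : ℝ)⁻¹ • (u * u) + (-c) • u := by unfold hsq; module
  rw [e]
  exact hC.testI_add hB (hC.testI_smul hB _ (hC.testI_mul hB hu hu)) (hC.testI_smul hB _ hu)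

theorem hsq_Γ (hu : u ∈ C.Test) (c : ℝ) {h : M →ₘ[m] ℝ} (hh : h ∈ C.W) :
    C.Γ h (hsq u c) = (u - c • 1) * C.Γ h u := by
  have uA := hC.test_A hu
  have uu := hC.toIsDir.mul_mem_A uA uA
  have e : hsq u c = (2 : ℝ)⁻¹ • (u * u) + (-c) • u := by unfold hsq; module
  rw [e, hC.Γ_add_right hh (hC.smul_mem _ _ uu.1) (hC.smul_mem _ _ uA.1),
    hC.Γ_smul_right _ hh uu.1, hC.Γ_smul_right _ hh uA.1, hC.Γ_mul_right uA uA hh]
  algebra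

theorem hsq_lap (hu : u ∈ C.Test) (c : ℝ) :
    C.lap (hsq u c) = (u - c • 1) * C.lap u + C.Γ u u := by
  have uu := hC.test_mul hB hu hu
  have e : hsq u c = (2 : ℝ)⁻¹ • (u * u) + (-c) • u := by unfold hsq; module
  rw [e, hC.lap_add hB (hC.test_smul hB _ uu) (hC.test_smul hB _ hu), hC.lap_smul hB _ uu,
    hC.lap_smul hB _ hu, hC.lap_mul hB hu hu]
  algebra

theorem hess_int (hb : b ∈ C.Test) (hu : u ∈ C.Test) (hX : X0 ∈ C.A) :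
    MemLp (X0 * C.hess b u u : M →ₘ[m] ℝ) 1 m := by
  refine mem_mul_top hX.2 ?_
  have uA := hC.test_A hu
  have bA := hC.test_A hb
  unfold Calc.hess
  refine mem_smul _ (mem_sub (mem_add ?_ ?_) ?_)
  · exact hC.Γ_mem1 uA.1 (hC.Γ_mem hB hb hu).1
  · exact hC.Γ_mem1 uA.1 (hC.Γ_mem hB hb hu).1
  · exact hC.Γ_mem1 bA.1 (hC.Γ_mem hB hu hu).1

/-- Leibniz rule: `QF((u-c)²/2, b)(ψ) = QF(u,b)((u-c)ψ) + ∫ ψ Hess b(∇u,∇u)` -/
theorem rad_leib (hb : b ∈ C.Test) (hu : u ∈ C.Test) (hX : X0 ∈ C.A) (c : ℝ) :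
    C.NN κ (hsq u c) b X0 = C.NN κ u b ((u - c • 1) * X0) + I (X0 * C.hess b u u) := by
  have hD := hC.toIsDir
  have uA := hC.test_A hu
  have uu := hC.test_mul hB hu hu
  have e : hsq u c = (2 : ℝ)⁻¹ • (u * u) + (-c) • u := by unfold hsq; module
  have uX := hD.mul_mem_A uA hX
  have e2 : (u - c • 1) * X0 = u * X0 - c • X0 := by algebra
  have e3 : X0 * C.KK b u u = (2 : ℝ) • (X0 * C.hess b u u) := by unfold Calc.KK; algebra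
  rw [e, hC.NN_add_left hB (hC.test_smul hB _ uu) (hC.test_smul hB _ hu) hb hX,
    hC.NN_smul_left hB _ uu hb hX, hC.NN_smul_left hB _ hu hb hX, hC.NN_mul hB hu hu hb hX, e2,
    NN_sub_z hC hB hu hb uX (hD.A_smul _ hX), hC.NN_smul_φ hB _ hu hb hX, e3, I_smul]
  ring

/-- (c), the DIV TRICK, exact form -/
theorem rad_c (hb : b ∈ C.TestI) (hP : RP C b P0 P1 P2) (hu : u ∈ C.TestI) (c : ℝ)
    (hμ : C.lap b = n • 1 - μ) (hq : C.Γ b b = (2 : ℝ) • (b + c0 • 1) + q) :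
    I (P0 * C.Γ u u) - I (P0 * C.hess b u u)
      = C.NN κ u b ((u - c • 1) * P0) - I (P0 * ((u - c • 1) * C.lap u))
        + I (μ * (P1 * ((u - c • 1) * C.Γ b u) + P0 * ((u - c • 1) * C.lap u + C.Γ u u)))
        - (2 : ℝ)⁻¹ * I (q * (P2 * ((u - c • 1) * C.Γ b u)
            + P1 * ((u - c • 1) * C.lap u + C.Γ u u)))
        + κ * I (P0 * ((u - c • 1) * C.Γ b u)) := by
  have hD := hC.toIsDir
  have uA := hC.test_A hu.1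
  have bA := hC.test_A hb.1
  have h1 := rad_NN hC hB hb hP (hsq_testI hC hB hu c) hμ hq
  rw [rad_leib hC hB hb.1 hu.1 hP.mem0 c, hsq_lap hC hB hu.1 c, hsq_Γ hC hB hu.1 c bA.1] at h1
  have hut : MemLp (u - c • 1 : M →ₘ[m] ℝ) ∞ m := mem_sub uA.2 (mem_smul _ mem_top_one)
  have m1 : MemLp (P0 * ((u - c • 1) * C.lap u) : M →ₘ[m] ℝ) 1 m := by
    have : P0 * ((u - c • 1) * C.lap u) = (u - c • 1) * (P0 * C.lap u) := by ring
    rw [this]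
    exact mem_mul_top hut (mem_mul_22 (hC.memLp _ hP.mem0.1)
      (hC.memLp _ (hC.test_lap_mem hu.1)))
  have m2 : MemLp (P0 * C.Γ u u : M →ₘ[m] ℝ) 1 m :=
    mem_mul_top hP.mem0.2 (hC.Γ_mem1 uA.1 uA.1)
  have e1 : I (P0 * ((u - c • 1) * C.lap u + C.Γ u u))
      = I (P0 * ((u - c • 1) * C.lap u)) + I (P0 * C.Γ u u) := by
    rw [mul_add, I_add m1 m2]
  rw [e1] at h1
  linarith

/-- (E6), exact form: `QF(u,u)(Ξ) = ∫ ψ ⟨∇u, ∇(⟨∇b,∇u⟩ - u)⟩ + ∫ ψ (|∇u|² - Hess b(∇u,∇u)) + ...`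
where `Ξ' = -ψ` -/
theorem rad_E6 (hb : b ∈ C.Test) (hP0 : P0 ∈ C.A) (hX : X0 ∈ C.A)
    (hXΓ : ∀ h ∈ C.W, C.Γ X0 h = -(P0 * C.Γ b h)) (hu : u ∈ C.Test) :
    C.NN κ u u X0 = I (P0 * C.Γ u (C.Γ b u - u)) + (I (P0 * C.Γ u u) - I (P0 * C.hess b u u))
      - I (X0 * C.Γ u (C.lap u)) - κ * I (X0 * C.Γ u u) := by
  have hD := hC.toIsDir
  have uA := hC.test_A hu
  have bA := hC.test_A hb
  have uuA := hC.Γ_mem hB hu hu
  have buA := hC.Γ_mem hB hb hu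
  have uL := hC.test_lap_mem hu
  have e1 : C.Γ (C.Γ u u) X0 = -(P0 * C.Γ b (C.Γ u u)) := by
    rw [hC.symm _ uuA.1 _ hX.1, hXΓ _ uuA.1]
  have s1 : MemLp (P0 * C.Γ u (C.Γ b u) : M →ₘ[m] ℝ) 1 m :=
    mem_mul_top hP0.2 (hC.Γ_mem1 uA.1 buA.1)
  have s2 : MemLp (P0 * C.Γ u u : M →ₘ[m] ℝ) 1 m := mem_mul_top hP0.2 (hC.Γ_mem1 uA.1 uA.1)
  have s3 : MemLp (P0 * C.Γ b (C.Γ u u) : M →ₘ[m] ℝ) 1 m :=
    mem_mul_top hP0.2 (hC.Γ_mem1 bA.1 uuA.1)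
  have s4 : MemLp (X0 * C.Γ u (C.lap u) : M →ₘ[m] ℝ) 1 m :=
    mem_mul_top hX.2 (hC.Γ_mem1 uA.1 uL)
  have e2 : I (P0 * C.Γ u (C.Γ b u - u)) = I (P0 * C.Γ u (C.Γ b u)) - I (P0 * C.Γ u u) := by
    rw [hC.Γ_sub_right uA.1 buA.1 uA.1, mul_sub, I_sub s1 s2]
  have e3 : I (P0 * C.hess b u u) = I (P0 * C.Γ u (C.Γ b u))
      - (2 : ℝ)⁻¹ * I (P0 * C.Γ b (C.Γ u u)) := by
    rw [← I_smul, ← I_sub s1 (mem_smul _ s3)]
    congr 1
    unfold Calc.hess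
    algebra
  have e4 : I (X0 * (C.Γ u (C.lap u) + C.Γ u (C.lap u))) = 2 * I (X0 * C.Γ u (C.lap u)) := by
    rw [mul_add, I_add s4 s4]; ring
  unfold Calc.NN
  rw [e1, I_neg, e2, e3, e4]
  ring

end ident2

end Vale.Agent.P242.H363
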