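import Vale.Agent.P242.H363.Rad

/-! P242, package A-RAD, file 3: estimates from the exact identities, with explicit constants.
`w` is a nonnegative weight which dominates the radial weights (later `w = r^n p_{Ct}(y,·)`). -/

set_option linter.all false

open MeasureTheory Filter Topology Set
open scoped ENNReal NNReal

namespace Vale.Agent.P242.H363

open Vale.Agent.P233

variable {M : Type*} [MeasurableSpace M] {m : Measure M} {C : Calc m}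

theorem abs_ae' (f : M →ₘ[m] ℝ) : ⇑|f| =ᵐ[m] fun x => |f x| := AEEqFun.coeFn_abs f

/-- the basic bound -/
theorem I_dom {f g w : M →ₘ[m] ℝ} {c : ℝ} (hw : MemLp (w * |f| : M →ₘ[m] ℝ) 1 m)
    (h : ∀ᵐ x ∂m, |g x| ≤ c * (w x * |f x|)) : |I g| ≤ c * I (w * |f|) := by
  rw [← I_smul]
  unfold I
  rw [← Real.norm_eq_abs]
  refine (norm_integral_le_integral_norm _).trans ?_
  refine integral_mono_of_nonneg (Eventually.of_forall fun x => norm_nonneg _)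
    (int_of_mem (mem_smul c hw)) ?_
  filter_upwards [h, smul_ae (w * |f|) c, mul_ae w |f|, abs_ae' f] with x a1 a2 a3 a4
  rw [a2, a3, a4, Real.norm_eq_abs]
  exact a1

theorem I_dom1 {g w : M →ₘ[m] ℝ} {c : ℝ} (hw : MemLp w 1 m)
    (h : ∀ᵐ x ∂m, |g x| ≤ c * w x) : |I g| ≤ c * I w := by
  rw [← I_smul]
  unfold I
  rw [← Real.norm_eq_abs]
  refine (norm_integral_le_integral_norm _).trans ?_
  refine integral_mono_of_nonneg (Eventually.of_forall fun x => norm_nonneg _)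
    (int_of_mem (mem_smul c hw)) ?_
  filter_upwards [h, smul_ae w c] with x a1 a2
  rw [a2, Real.norm_eq_abs]
  exact a1

/-- domination of a radial weight (with two derivatives) by `w` at scale `r` -/
structure WB (P0 P1 P2 w : M →ₘ[m] ℝ) (a r : ℝ) : Prop where
  a0 : 0 ≤ a
  r0 : 0 < r
  w0 : ∀ᵐ x ∂m, 0 ≤ w x
  w1 : MemLp w 1 m
  p0 : ∀ᵐ x ∂m, |P0 x| ≤ a * w x
  p1 : ∀ᵐ x ∂m, |P1 x| ≤ a / r ^ 2 * w x
  p2 : ∀ᵐ x ∂m, |P2 x| ≤ a / r ^ 4 * w x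

/-- bounds for `u` on the support of the radial weights: `L` is the Lipschitz constant,
`ℓ` measures the size of the Laplacian, `c` is the value at the centre -/
structure UB (C : Calc m) (b u P0 P1 P2 : M →ₘ[m] ℝ) (r L B ℓ c : ℝ) : Prop where
  L0 : 0 ≤ L
  B0 : 0 ≤ B
  l0 : 0 ≤ ℓ
  val : ∀ᵐ x ∂m, (P0 x ≠ 0 ∨ P1 x ≠ 0 ∨ P2 x ≠ 0) → |u x - c| ≤ L * r
  grad : ∀ᵐ x ∂m, (P0 x ≠ 0 ∨ P1 x ≠ 0 ∨ P2 x ≠ 0) → C.Γ u u x ≤ L ^ 2
  rad : ∀ᵐ x ∂m, (P0 x ≠ 0 ∨ P1 x ≠ 0 ∨ P2 x ≠ 0) → |C.Γ b u x| ≤ L * B * r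
  lap : ∀ᵐ x ∂m, (P0 x ≠ 0 ∨ P1 x ≠ 0 ∨ P2 x ≠ 0) → |C.lap u x| ≤ ℓ * L / r

section est
variable (hC : IsGamma C) {K n c0 : ℝ}
variable {b u v F P0 P1 P2 X0 μ q e w : M →ₘ[m] ℝ} {a r L B ℓ c : ℝ}
include hC

/-- `(M')` estimated: `|∫ ψ ⟨∇u,∇e⟩| ≤ a (ℓ + B) L r⁻¹ ∫ w |e - k|` -/
theorem est_M (hb : b ∈ C.Test) (hP : RP C b P0 P1 P2) (hu : u ∈ C.Test) (he : e ∈ C.A)
    (hW : WB P0 P1 P2 w a r) (hU : UB C b u P0 P1 P2 r L B ℓ c) (k : ℝ) :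
    |I (P0 * C.Γ u e)| ≤ a * (ℓ + B) * L / r * I (w * |e - k • 1|) := by
  rw [rad_M hC hb hP hu he k, abs_neg]
  have het : MemLp (e - k • 1 : M →ₘ[m] ℝ) ∞ m := mem_sub he.2 (mem_smul _ mem_top_one)
  have hw1 : MemLp (w * |e - k • 1| : M →ₘ[m] ℝ) 1 m := by
    refine mem_top_mul hW.w1 (mem_of_le het ?_)
    filter_upwards [abs_ae' (e - k • 1)] with x hx
    rw [hx, abs_abs]
  refine I_dom (f := e - k • 1) hw1 ?_
  filter_upwards [mul_ae (e - k • 1) (P0 * C.lap u + P1 * C.Γ b u),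
    add_ae (P0 * C.lap u) (P1 * C.Γ b u), mul_ae P0 (C.lap u), mul_ae P1 (C.Γ b u), hW.w0,
    hW.p0, hW.p1, hU.lap, hU.rad] with x h1 h2 h3 h4 h5 h6 h7 h8 h9
  rw [h1, h2, h3, h4, abs_mul]
  have r0 := hW.r0
  have a0 := hW.a0
  have L0 := hU.L0
  have B0 := hU.B0
  have l0 := hU.l0
  have k1 : |P0 x * C.lap u x| ≤ a * w x * (ℓ * L / r) := by
    rw [abs_mul]
    by_cases hx : P0 x = 0
    · rw [hx, abs_zero, zero_mul]; positivity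
    · exact mul_le_mul h6 (h8 (Or.inl hx)) (abs_nonneg _) (by positivity)
  have k2 : |P1 x * C.Γ b u x| ≤ a / r ^ 2 * w x * (L * B * r) := by
    rw [abs_mul]
    by_cases hx : P1 x = 0
    · rw [hx, abs_zero, zero_mul]; positivity
    · exact mul_le_mul h7 (h9 (Or.inr (Or.inl hx))) (abs_nonneg _) (by positivity)
  have k3 : |P0 x * C.lap u x + P1 x * C.Γ b u x| ≤ a * (ℓ + B) * L / r * w x := by
    refine (abs_add_le _ _).trans ((add_le_add k1 k2).trans (le_of_eq ?_))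
    field_simp
  calc |(e - k • 1 : M →ₘ[m] ℝ) x| * |P0 x * C.lap u x + P1 x * C.Γ b u x|
      ≤ |(e - k • 1 : M →ₘ[m] ℝ) x| * (a * (ℓ + B) * L / r * w x) :=
        mul_le_mul_of_nonneg_left k3 (abs_nonneg _)
    _ = a * (ℓ + B) * L / r * (w x * |(e - k • 1 : M →ₘ[m] ℝ) x|) := by ring

/-- the DIV TRICK, estimated -/
theorem est_c (hn : 0 < n) (hBE : C.BE K n) (hb : b ∈ C.TestI) (hP : RP C b P0 P1 P2)
    (hu : u ∈ C.TestI) (hw : w ∈ C.A)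
    (hμ : C.lap b = n • 1 - μ) (hq : C.Γ b b = (2 : ℝ) • (b + c0 • 1) + q)
    (hW : WB P0 P1 P2 w a r) (hU : UB C b u P0 P1 P2 r L B ℓ c) :
    |I (P0 * C.Γ u u) - I (P0 * C.hess b u u)|
      ≤ a * L * r * (Real.sqrt (QQ C K n u u w) * Real.sqrt (QQ C K n b b w))
        + a * L ^ 2 * ((B + 2 * ℓ + 1) * I (w * |μ|) * (1 + n⁻¹)
          + (B + ℓ + 1) / r ^ 2 * I (w * |q|) + (2 * ℓ + |K| * B * r ^ 2) * I w) := by
  have hB := hC.bei hn hBE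
  have hD := hC.toIsDir
  have bA := hC.test_A hb.1
  have uA := hC.test_A hu.1
  have bT := hC.test_Γ_top hb.1
  have LbA := hC.testI_lap_A' hb
  have LuA := hC.testI_lap_A' hu
  have r0 := hW.r0
  have a0 := hW.a0
  have L0 := hU.L0
  have B0 := hU.B0
  have l0 := hU.l0
  have hut : MemLp (u - c • 1 : M →ₘ[m] ℝ) ∞ m := mem_sub uA.2 (mem_smul _ mem_top_one)
  have hBt : MemLp (b + c0 • 1 : M →ₘ[m] ℝ) ∞ m := mem_add bA.2 (mem_smul _ mem_top_one)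
  have eμ : μ = n • 1 - C.lap b := by rw [hμ]; abel
  have eq' : q = C.Γ b b - (2 : ℝ) • (b + c0 • 1) := by rw [hq]; abel
  have hμt : MemLp μ ∞ m := by rw [eμ]; exact mem_sub (mem_smul _ mem_top_one) LbA.2
  have hqt : MemLp q ∞ m := by rw [eq']; exact mem_sub bT (mem_smul _ hBt)
  have absT : ∀ {f : M →ₘ[m] ℝ}, MemLp f ∞ m → MemLp (w * |f| : M →ₘ[m] ℝ) 1 m := by
    intro f hf
    refine mem_top_mul hW.w1 (mem_of_le hf ?_)
    filter_upwards [abs_ae' f] with x hx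
    rw [hx, abs_abs]
  have hxP : (u - c • 1) * P0 ∈ C.A := by
    have e1 : (u - c • 1) * P0 = u * P0 - c • P0 := by algebra
    rw [e1]
    exact hD.A_sub (hD.mul_mem_A uA hP.mem0) (hD.A_smul _ hP.mem0)
  -- the first term
  have haw : (a * L * r) • w ∈ C.A := hD.A_smul _ hw
  have t1 : |QQ C K n u b ((u - c • 1) * P0)|
      ≤ a * L * r * (Real.sqrt (QQ C K n u u w) * Real.sqrt (QQ C K n b b w)) := by
    have h1 := QQ_cs_abs hC hn hBE hu.1 hb.1 hxP haw (by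
      filter_upwards [mul_ae (u - c • 1) P0, sub_ae u (c • 1), smul_ae (1 : M →ₘ[m] ℝ) c,
        one_ae (M := M) (m := m), smul_ae w (a * L * r), hW.w0, hW.p0, hU.val]
        with x h1 h2 h3 h4 h5 h6 h7 h8
      rw [h1, h2, h3, h4, h5, mul_one, abs_mul]
      by_cases hx : P0 x = 0
      · rw [hx, abs_zero, mul_zero]; positivity
      · calc |u x - c| * |P0 x| ≤ L * r * (a * w x) :=
              mul_le_mul (h8 (Or.inl hx)) h7 (abs_nonneg _) (by positivity)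
          _ = a * L * r * w x := by ring)
    rw [QQ_smul_z hC hB _ hu.1 hu.1 hw, QQ_smul_z hC hB _ hb.1 hb.1 hw,
      Real.sqrt_mul (show 0 ≤ a * L * r by positivity) (QQ C K n u u w),
      Real.sqrt_mul (show 0 ≤ a * L * r by positivity) (QQ C K n b b w)] at h1
    refine h1.trans (le_of_eq ?_)
    have h2 := Real.mul_self_sqrt (show 0 ≤ a * L * r by positivity)
    calc Real.sqrt (a * L * r) * Real.sqrt (QQ C K n u u w)
          * (Real.sqrt (a * L * r) * Real.sqrt (QQ C K n b b w))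
        = (Real.sqrt (a * L * r) * Real.sqrt (a * L * r))
          * (Real.sqrt (QQ C K n u u w) * Real.sqrt (QQ C K n b b w)) := by ring
      _ = _ := by rw [h2]
  -- pointwise facts
  have ev : ∀ᵐ x ∂m, 0 ≤ w x ∧ |P0 x * (u x - c) * C.lap u x| ≤ a * ℓ * L ^ 2 * w x
      ∧ |P0 x * ((u x - c) * C.Γ b u x)| ≤ a * L ^ 2 * B * r ^ 2 * w x
      ∧ |P1 x * ((u x - c) * C.Γ b u x)| ≤ a * L ^ 2 * B * w x
      ∧ |P2 x * ((u x - c) * C.Γ b u x)| ≤ a * L ^ 2 * B / r ^ 2 * w x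
      ∧ |P0 x * ((u x - c) * C.lap u x + C.Γ u u x)| ≤ a * L ^ 2 * (ℓ + 1) * w x
      ∧ |P1 x * ((u x - c) * C.lap u x + C.Γ u u x)| ≤ a * L ^ 2 * (ℓ + 1) / r ^ 2 * w x := by
    filter_upwards [hW.w0, hW.p0, hW.p1, hW.p2, hU.val, hU.grad, hU.rad, hU.lap,
      hC.toIsDir.Γ_nonneg_ae uA.1] with x h1 h2 h3 h4 h5 h6 h7 h8 h9
    have g1 : ∀ (z : ℝ), |z| ≤ a * w x → (z ≠ 0 → |u x - c| ≤ L * r ∧ |C.lap u x| ≤ ℓ * L / r) →
        |z * (u x - c) * C.lap u x| ≤ a * ℓ * L ^ 2 * w x := by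
      intro z hz hz'
      by_cases hx : z = 0
      · rw [hx, zero_mul, zero_mul, abs_zero]; positivity
      · obtain ⟨b1, b2⟩ := hz' hx
        rw [abs_mul, abs_mul]
        calc |z| * |u x - c| * |C.lap u x| ≤ (a * w x) * (L * r) * (ℓ * L / r) := by gcongr
          _ = a * ℓ * L ^ 2 * w x := by field_simp
    have g2 : ∀ (z k : ℝ), 0 ≤ k → |z| ≤ k * w x →
        (z ≠ 0 → |u x - c| ≤ L * r ∧ |C.Γ b u x| ≤ L * B * r) →
        |z * ((u x - c) * C.Γ b u x)| ≤ k * (L ^ 2 * B * r ^ 2) * w x := by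
      intro z k hk hz hz'
      by_cases hx : z = 0
      · rw [hx, zero_mul, abs_zero]; positivity
      · obtain ⟨b1, b2⟩ := hz' hx
        rw [abs_mul, abs_mul]
        calc |z| * (|u x - c| * |C.Γ b u x|) ≤ (k * w x) * ((L * r) * (L * B * r)) := by gcongr
          _ = k * (L ^ 2 * B * r ^ 2) * w x := by ring
    have g3 : ∀ (z k : ℝ), 0 ≤ k → |z| ≤ k * w x →
        (z ≠ 0 → |u x - c| ≤ L * r ∧ |C.lap u x| ≤ ℓ * L / r ∧ C.Γ u u x ≤ L ^ 2) →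
        |z * ((u x - c) * C.lap u x + C.Γ u u x)| ≤ k * (L ^ 2 * (ℓ + 1)) * w x := by
      intro z k hk hz hz'
      by_cases hx : z = 0
      · rw [hx, zero_mul, abs_zero]; positivity
      · obtain ⟨b1, b2, b3⟩ := hz' hx
        rw [abs_mul]
        have s1 : |(u x - c) * C.lap u x + C.Γ u u x| ≤ L ^ 2 * (ℓ + 1) := by
          refine (abs_add_le _ _).trans ?_
          rw [abs_mul, abs_of_nonneg h9]
          calc |u x - c| * |C.lap u x| + C.Γ u u x ≤ (L * r) * (ℓ * L / r) + L ^ 2 := by gcongr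
            _ = L ^ 2 * (ℓ + 1) := by field_simp
        calc |z| * |(u x - c) * C.lap u x + C.Γ u u x| ≤ (k * w x) * (L ^ 2 * (ℓ + 1)) := by
              gcongr
          _ = k * (L ^ 2 * (ℓ + 1)) * w x := by ring
    refine ⟨h1, g1 _ h2 fun hx => ⟨h5 (Or.inl hx), h8 (Or.inl hx)⟩, ?_, ?_, ?_, ?_, ?_⟩
    · refine (g2 _ a a0 h2 fun hx => ⟨h5 (Or.inl hx), h7 (Or.inl hx)⟩).trans (le_of_eq ?_)
      ring
    · refine (g2 _ (a / r ^ 2) (by positivity) h3 fun hx =>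
        ⟨h5 (Or.inr (Or.inl hx)), h7 (Or.inr (Or.inl hx))⟩).trans (le_of_eq ?_)
      field_simp
    · refine (g2 _ (a / r ^ 4) (by positivity) h4 fun hx =>
        ⟨h5 (Or.inr (Or.inr hx)), h7 (Or.inr (Or.inr hx))⟩).trans (le_of_eq ?_)
      field_simp
    · refine (g3 _ a a0 h2 fun hx => ⟨h5 (Or.inl hx), h8 (Or.inl hx), h6 (Or.inl hx)⟩).trans
        (le_of_eq ?_)
      ring
    · refine (g3 _ (a / r ^ 2) (by positivity) h3 fun hx => ⟨h5 (Or.inr (Or.inl hx)),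
        h8 (Or.inr (Or.inl hx)), h6 (Or.inr (Or.inl hx))⟩).trans (le_of_eq ?_)
      field_simp
  -- values of the classes
  have va : ∀ᵐ x ∂m, (u - c • 1 : M →ₘ[m] ℝ) x = u x - c := by
    filter_upwards [sub_ae u (c • 1), smul_ae (1 : M →ₘ[m] ℝ) c, one_ae (M := M) (m := m)]
      with x h1 h2 h3
    rw [h1, h2, h3, mul_one]
  -- term 1b
  have t1b : |n⁻¹ * I ((u - c • 1) * P0 * (C.lap u * C.lap b))|
      ≤ a * ℓ * L ^ 2 * (n⁻¹ * I (w * |μ|)) + a * ℓ * L ^ 2 * I w := by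
    have e1 : (u - c • 1) * P0 * (C.lap u * C.lap b)
        = n • ((u - c • 1) * P0 * C.lap u) - (u - c • 1) * P0 * C.lap u * μ := by
      rw [hμ]; algebra
    have m1 : MemLp ((u - c • 1) * P0 * C.lap u : M →ₘ[m] ℝ) 1 m :=
      mem_mul_22 (hC.memLp _ hxP.1) (hC.memLp _ LuA.1)
    have m2 : MemLp ((u - c • 1) * P0 * C.lap u * μ : M →ₘ[m] ℝ) 1 m := mem_top_mul m1 hμt
    rw [e1, I_sub (mem_smul _ m1) m2, I_smul]
    have b1 : |I ((u - c • 1) * P0 * C.lap u)| ≤ a * ℓ * L ^ 2 * I w := by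
      refine I_dom1 hW.w1 ?_
      filter_upwards [ev, va, mul_ae ((u - c • 1) * P0) (C.lap u), mul_ae (u - c • 1) P0]
        with x h1 h2 h3 h4
      rw [h3, h4, h2, mul_comm (u x - c)]
      exact h1.2.1
    have b2 : |I ((u - c • 1) * P0 * C.lap u * μ)| ≤ a * ℓ * L ^ 2 * I (w * |μ|) := by
      refine I_dom (absT hμt) ?_
      filter_upwards [ev, va, mul_ae ((u - c • 1) * P0) (C.lap u), mul_ae (u - c • 1) P0,
        mul_ae ((u - c • 1) * P0 * C.lap u) μ] with x h1 h2 h3 h4 h5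
      rw [h5, h3, h4, h2, mul_comm (u x - c), abs_mul]
      calc |P0 x * (u x - c) * C.lap u x| * |μ x| ≤ (a * ℓ * L ^ 2 * w x) * |μ x| :=
            mul_le_mul_of_nonneg_right h1.2.1 (abs_nonneg _)
        _ = a * ℓ * L ^ 2 * (w x * |μ x|) := by ring
    have hn' : (0 : ℝ) ≤ n⁻¹ := inv_nonneg.2 hn.le
    have b3 : |n * I ((u - c • 1) * P0 * C.lap u) - I ((u - c • 1) * P0 * C.lap u * μ)|
        ≤ n * (a * ℓ * L ^ 2 * I w) + a * ℓ * L ^ 2 * I (w * |μ|) := by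
      refine (abs_sub _ _).trans ?_
      rw [abs_mul, abs_of_pos hn]
      exact add_le_add (mul_le_mul_of_nonneg_left b1 hn.le) b2
    rw [abs_mul, abs_of_nonneg hn']
    calc n⁻¹ * |n * I ((u - c • 1) * P0 * C.lap u) - I ((u - c • 1) * P0 * C.lap u * μ)|
        ≤ n⁻¹ * (n * (a * ℓ * L ^ 2 * I w) + a * ℓ * L ^ 2 * I (w * |μ|)) :=
          mul_le_mul_of_nonneg_left b3 hn'
      _ = _ := by field_simp; ring
  have t2 : |I (P0 * ((u - c • 1) * C.lap u))| ≤ a * ℓ * L ^ 2 * I w := by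
    refine I_dom1 hW.w1 ?_
    filter_upwards [ev, va, mul_ae P0 ((u - c • 1) * C.lap u), mul_ae (u - c • 1) (C.lap u)]
      with x h1 h2 h3 h4
    rw [h3, h4, h2, ← mul_assoc]
    exact h1.2.1
  have t3 : |I (μ * (P1 * ((u - c • 1) * C.Γ b u) + P0 * ((u - c • 1) * C.lap u + C.Γ u u)))|
      ≤ a * L ^ 2 * (B + ℓ + 1) * I (w * |μ|) := by
    refine I_dom (absT hμt) ?_
    filter_upwards [ev, va,
      mul_ae μ (P1 * ((u - c • 1) * C.Γ b u) + P0 * ((u - c • 1) * C.lap u + C.Γ u u)),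
      add_ae (P1 * ((u - c • 1) * C.Γ b u)) (P0 * ((u - c • 1) * C.lap u + C.Γ u u)),
      mul_ae P1 ((u - c • 1) * C.Γ b u), mul_ae (u - c • 1) (C.Γ b u),
      mul_ae P0 ((u - c • 1) * C.lap u + C.Γ u u), add_ae ((u - c • 1) * C.lap u) (C.Γ u u),
      mul_ae (u - c • 1) (C.lap u)] with x h1 h2 h3 h4 h5 h6 h7 h8 h9
    rw [h3, h4, h5, h6, h7, h8, h9, h2, abs_mul]
    have s1 : |P1 x * ((u x - c) * C.Γ b u x) + P0 x * ((u x - c) * C.lap u x + C.Γ u u x)|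
        ≤ a * L ^ 2 * (B + ℓ + 1) * w x := by
      refine (abs_add_le _ _).trans ((add_le_add h1.2.2.2.1 h1.2.2.2.2.2.1).trans (le_of_eq ?_))
      ring
    calc |μ x| * _ ≤ |μ x| * (a * L ^ 2 * (B + ℓ + 1) * w x) :=
          mul_le_mul_of_nonneg_left s1 (abs_nonneg _)
      _ = _ := by ring
  have t4 : |I (q * (P2 * ((u - c • 1) * C.Γ b u) + P1 * ((u - c • 1) * C.lap u + C.Γ u u)))|
      ≤ a * L ^ 2 * (B + ℓ + 1) / r ^ 2 * I (w * |q|) := by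
    refine I_dom (absT hqt) ?_
    filter_upwards [ev, va,
      mul_ae q (P2 * ((u - c • 1) * C.Γ b u) + P1 * ((u - c • 1) * C.lap u + C.Γ u u)),
      add_ae (P2 * ((u - c • 1) * C.Γ b u)) (P1 * ((u - c • 1) * C.lap u + C.Γ u u)),
      mul_ae P2 ((u - c • 1) * C.Γ b u), mul_ae (u - c • 1) (C.Γ b u),
      mul_ae P1 ((u - c • 1) * C.lap u + C.Γ u u), add_ae ((u - c • 1) * C.lap u) (C.Γ u u),
      mul_ae (u - c • 1) (C.lap u)] with x h1 h2 h3 h4 h5 h6 h7 h8 h9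
    rw [h3, h4, h5, h6, h7, h8, h9, h2, abs_mul]
    have s1 : |P2 x * ((u x - c) * C.Γ b u x) + P1 x * ((u x - c) * C.lap u x + C.Γ u u x)|
        ≤ a * L ^ 2 * (B + ℓ + 1) / r ^ 2 * w x := by
      refine (abs_add_le _ _).trans ((add_le_add h1.2.2.2.2.1 h1.2.2.2.2.2.2).trans
        (le_of_eq ?_))
      ring
    calc |q x| * _ ≤ |q x| * (a * L ^ 2 * (B + ℓ + 1) / r ^ 2 * w x) :=
          mul_le_mul_of_nonneg_left s1 (abs_nonneg _)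
      _ = _ := by ring
  have t5 : |I (P0 * ((u - c • 1) * C.Γ b u))| ≤ a * L ^ 2 * B * r ^ 2 * I w := by
    refine I_dom1 hW.w1 ?_
    filter_upwards [ev, va, mul_ae P0 ((u - c • 1) * C.Γ b u), mul_ae (u - c • 1) (C.Γ b u)]
      with x h1 h2 h3 h4
    rw [h3, h4, h2]
    exact h1.2.2.1
  have hQ : C.NN K u b ((u - c • 1) * P0)
      = QQ C K n u b ((u - c • 1) * P0) + n⁻¹ * I ((u - c • 1) * P0 * (C.lap u * C.lap b)) := by
    unfold QQ; ring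
  rw [rad_c hC hB hb hP hu c hμ hq, hQ]
  have Iw0 : 0 ≤ I w := I_nonneg (nonneg_iff_ae.2 hW.w0)
  have Iμ0 : 0 ≤ I (w * |μ|) := I_nonneg (nonneg_iff_ae.2 (by
    filter_upwards [hW.w0, mul_ae w |μ|, abs_ae' μ] with x h1 h2 h3
    rw [h2, h3]; positivity))
  have Iq0 : 0 ≤ I (w * |q|) := I_nonneg (nonneg_iff_ae.2 (by
    filter_upwards [hW.w0, mul_ae w |q|, abs_ae' q] with x h1 h2 h3
    rw [h2, h3]; positivity))
  have hn' : (0 : ℝ) ≤ n⁻¹ := inv_nonneg.2 hn.le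
  set A1 := QQ C K n u b ((u - c • 1) * P0)
  set A2 := n⁻¹ * I ((u - c • 1) * P0 * (C.lap u * C.lap b))
  set A3 := I (P0 * ((u - c • 1) * C.lap u))
  set A4 := I (μ * (P1 * ((u - c • 1) * C.Γ b u) + P0 * ((u - c • 1) * C.lap u + C.Γ u u)))
  set A5 := I (q * (P2 * ((u - c • 1) * C.Γ b u) + P1 * ((u - c • 1) * C.lap u + C.Γ u u)))
  set A6 := I (P0 * ((u - c • 1) * C.Γ b u))
  have k1 : |A1 + A2 - A3 + A4 - (2 : ℝ)⁻¹ * A5 + K * A6|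
      ≤ |A1| + |A2| + |A3| + |A4| + (2 : ℝ)⁻¹ * |A5| + |K| * |A6| := by
    have s1 := abs_add_le (A1 + A2 - A3 + A4 - (2 : ℝ)⁻¹ * A5) (K * A6)
    have s2 := abs_sub (A1 + A2 - A3 + A4) ((2 : ℝ)⁻¹ * A5)
    have s3 := abs_add_le (A1 + A2 - A3) A4
    have s4 := abs_sub (A1 + A2) A3
    have s5 := abs_add_le A1 A2
    rw [abs_mul] at s1 s2
    rw [abs_of_pos (show (0 : ℝ) < 2⁻¹ by norm_num)] at s2
    linarith
  have k2 : |K| * |A6| ≤ |K| * (a * L ^ 2 * B * r ^ 2 * I w) :=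
    mul_le_mul_of_nonneg_left t5 (abs_nonneg _)
  have k3 : 0 ≤ a * L ^ 2 * (B + ℓ + 1) / r ^ 2 * I (w * |q|) := by positivity
  have k4 : 0 ≤ a * L ^ 2 * (ℓ + B + 1) * (n⁻¹ * I (w * |μ|)) := by positivity
  have k5 : 0 ≤ a * L ^ 2 * ℓ * I (w * |μ|) := by positivity
  have k6 : 0 ≤ a * L ^ 2 * ℓ * (n⁻¹ * I (w * |μ|)) := by positivity
  refine k1.trans ?_
  have fin : a * L ^ 2 * ((B + 2 * ℓ + 1) * I (w * |μ|) * (1 + n⁻¹)
          + (B + ℓ + 1) / r ^ 2 * I (w * |q|) + (2 * ℓ + |K| * B * r ^ 2) * I w)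
      = a * L ^ 2 * (B + ℓ + 1) * I (w * |μ|) + a * L ^ 2 * ℓ * I (w * |μ|)
        + a * L ^ 2 * (ℓ + B + 1) * (n⁻¹ * I (w * |μ|)) + a * L ^ 2 * ℓ * (n⁻¹ * I (w * |μ|))
        + a * L ^ 2 * (B + ℓ + 1) / r ^ 2 * I (w * |q|) + a * ℓ * L ^ 2 * I w
        + a * ℓ * L ^ 2 * I w + |K| * (a * L ^ 2 * B * r ^ 2 * I w) := by
    field_simp
    ring
  rw [fin]
  linarith

/-- the exact formula (E6) with errors: `QF(u,u)(Ξ) = ∫ ψ ⟨∇u,∇(⟨∇b,∇u⟩-u)⟩ + errors`,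
where `g2` bounds `|⟨∇u,∇Δu⟩|` and `g1` bounds `|∇u|²` on the support of `Ξ` -/
theorem est_E6 (hn : 0 < n) (hBE : C.BE K n) (hb : b ∈ C.TestI) (hP : RP C b P0 P1 P2)
    (hu : u ∈ C.TestI) (hw : w ∈ C.A)
    (hμ : C.lap b = n • 1 - μ) (hq : C.Γ b b = (2 : ℝ) • (b + c0 • 1) + q)
    (hW : WB P0 P1 P2 w a r) (hU : UB C b u P0 P1 P2 r L B ℓ c)
    (hX : X0 ∈ C.A) (hXΓ : ∀ h ∈ C.W, C.Γ X0 h = -(P0 * C.Γ b h))
    (hXw : ∀ᵐ x ∂m, |X0 x| ≤ a * r ^ 2 * w x)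
    (hX1 : ∀ᵐ x ∂m, X0 x ≠ 0 → C.Γ u u x ≤ L ^ 2)
    (hX2 : ∀ᵐ x ∂m, X0 x ≠ 0 → |C.Γ u (C.lap u) x| ≤ ℓ * L ^ 2 / r ^ 2) :
    |C.NN K u u X0 - I (P0 * C.Γ u (C.Γ b u - u))|
      ≤ a * L * r * (Real.sqrt (QQ C K n u u w) * Real.sqrt (QQ C K n b b w))
        + a * L ^ 2 * ((B + 2 * ℓ + 1) * I (w * |μ|) * (1 + n⁻¹)
          + (B + ℓ + 1) / r ^ 2 * I (w * |q|) + (3 * ℓ + |K| * (B + 1) * r ^ 2) * I w) := by
  have hB := hC.bei hn hBE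
  have uA := hC.test_A hu.1
  have r0 := hW.r0
  have a0 := hW.a0
  have L0 := hU.L0
  have l0 := hU.l0
  have h1 := est_c hC hn hBE hb hP hu hw hμ hq hW hU
  rw [rad_E6 hC hB hb.1 hP.mem0 hX hXΓ hu.1]
  have t1 : |I (X0 * C.Γ u (C.lap u))| ≤ a * ℓ * L ^ 2 * I w := by
    refine I_dom1 hW.w1 ?_
    filter_upwards [mul_ae X0 (C.Γ u (C.lap u)), hXw, hX2, hW.w0] with x g1 g2 g3 g4
    rw [g1, abs_mul]
    by_cases hx : X0 x = 0
    · rw [hx, abs_zero, zero_mul]; positivity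
    · calc |X0 x| * |C.Γ u (C.lap u) x| ≤ (a * r ^ 2 * w x) * (ℓ * L ^ 2 / r ^ 2) :=
            mul_le_mul g2 (g3 hx) (abs_nonneg _) (by positivity)
        _ = a * ℓ * L ^ 2 * w x := by field_simp
  have t2 : |I (X0 * C.Γ u u)| ≤ a * L ^ 2 * r ^ 2 * I w := by
    refine I_dom1 hW.w1 ?_
    filter_upwards [mul_ae X0 (C.Γ u u), hXw, hX1, hW.w0, hC.toIsDir.Γ_nonneg_ae uA.1]
      with x g1 g2 g3 g4 g5
    rw [g1, abs_mul, abs_of_nonneg g5]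
    by_cases hx : X0 x = 0
    · rw [hx, abs_zero, zero_mul]; positivity
    · calc |X0 x| * C.Γ u u x ≤ (a * r ^ 2 * w x) * (L ^ 2) :=
            mul_le_mul g2 (g3 hx) g5 (by positivity)
        _ = a * L ^ 2 * r ^ 2 * w x := by ring
  set Y := I (P0 * C.Γ u (C.Γ b u - u))
  set A1 := I (P0 * C.Γ u u) - I (P0 * C.hess b u u)
  set A2 := I (X0 * C.Γ u (C.lap u))
  set A3 := I (X0 * C.Γ u u)
  have e : Y + A1 - A2 - K * A3 - Y = A1 - A2 - K * A3 := by ring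
  rw [e]
  have s1 := abs_sub (A1 - A2) (K * A3)
  have s2 := abs_sub A1 A2
  rw [abs_mul] at s1
  have s3 : |K| * |A3| ≤ |K| * (a * L ^ 2 * r ^ 2 * I w) :=
    mul_le_mul_of_nonneg_left t2 (abs_nonneg _)
  have e2 : a * L ^ 2 * ((B + 2 * ℓ + 1) * I (w * |μ|) * (1 + n⁻¹)
          + (B + ℓ + 1) / r ^ 2 * I (w * |q|) + (3 * ℓ + |K| * (B + 1) * r ^ 2) * I w)
      = a * L ^ 2 * ((B + 2 * ℓ + 1) * I (w * |μ|) * (1 + n⁻¹)
          + (B + ℓ + 1) / r ^ 2 * I (w * |q|) + (2 * ℓ + |K| * B * r ^ 2) * I w)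
        + a * ℓ * L ^ 2 * I w + |K| * (a * L ^ 2 * r ^ 2 * I w) := by ring
  rw [e2]
  linarith

/-- (M): with the expansion `⟨∇b,∇u⟩ - u = u' + e`:
`|QF(u,u)(Ξ) - ∫ ψ ⟨∇u,∇u'⟩| ≤ ...` -/
theorem est_MM {u' : M →ₘ[m] ℝ} (hn : 0 < n) (hBE : C.BE K n) (hb : b ∈ C.TestI)
    (hP : RP C b P0 P1 P2)
    (hu : u ∈ C.TestI) (hw : w ∈ C.A)
    (hμ : C.lap b = n • 1 - μ) (hq : C.Γ b b = (2 : ℝ) • (b + c0 • 1) + q)
    (hW : WB P0 P1 P2 w a r) (hU : UB C b u P0 P1 P2 r L B ℓ c)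
    (hX : X0 ∈ C.A) (hXΓ : ∀ h ∈ C.W, C.Γ X0 h = -(P0 * C.Γ b h))
    (hXw : ∀ᵐ x ∂m, |X0 x| ≤ a * r ^ 2 * w x)
    (hX1 : ∀ᵐ x ∂m, X0 x ≠ 0 → C.Γ u u x ≤ L ^ 2)
    (hX2 : ∀ᵐ x ∂m, X0 x ≠ 0 → |C.Γ u (C.lap u) x| ≤ ℓ * L ^ 2 / r ^ 2)
    (hu' : u' ∈ C.A) (he : e ∈ C.A) (hL : C.Γ b u - u = u' + e) (k : ℝ) :
    |C.NN K u u X0 - I (P0 * C.Γ u u')|
      ≤ a * L * r * (Real.sqrt (QQ C K n u u w) * Real.sqrt (QQ C K n b b w))
        + a * L ^ 2 * ((B + 2 * ℓ + 1) * I (w * |μ|) * (1 + n⁻¹)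
          + (B + ℓ + 1) / r ^ 2 * I (w * |q|) + (3 * ℓ + |K| * (B + 1) * r ^ 2) * I w)
        + a * (ℓ + B) * L / r * I (w * |e - k • 1|) := by
  have uA := hC.test_A hu.1
  have h1 := est_E6 hC hn hBE hb hP hu hw hμ hq hW hU hX hXΓ hXw hX1 hX2
  have h2 := est_M hC hb.1 hP hu.1 he hW hU k
  have e1 : I (P0 * C.Γ u (C.Γ b u - u)) = I (P0 * C.Γ u u') + I (P0 * C.Γ u e) := by
    rw [hL, hC.Γ_add_right uA.1 hu'.1 he.1, mul_add,
      I_add (mem_mul_top hP.mem0.2 (hC.Γ_mem1 uA.1 hu'.1))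
        (mem_mul_top hP.mem0.2 (hC.Γ_mem1 uA.1 he.1))]
  rw [e1] at h1
  have e2 : C.NN K u u X0 - I (P0 * C.Γ u u')
      = (C.NN K u u X0 - (I (P0 * C.Γ u u') + I (P0 * C.Γ u e))) + I (P0 * C.Γ u e) := by ring
  rw [e2]
  exact (abs_add_le _ _).trans (add_le_add h1 h2)

/-- (b): antisymmetry of the linear part, with the expansions `⟨∇b,∇u⟩ - u = u' + e`,
`⟨∇b,∇v⟩ - v = v' + f` -/
theorem est_b {u' v' f : M →ₘ[m] ℝ} {L' ℓ' c' : ℝ} (hB : C.BEi K) (hb : b ∈ C.TestI)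
    (hP : RP C b P0 P1 P2) (hu : u ∈ C.Test) (hv : v ∈ C.Test)
    (hW : WB P0 P1 P2 w a r) (hU : UB C b u P0 P1 P2 r L B ℓ c)
    (hV : UB C b v P0 P1 P2 r L' B ℓ' c')
    (hu' : u' ∈ C.A) (he : e ∈ C.A) (hL : C.Γ b u - u = u' + e)
    (hv' : v' ∈ C.A) (hf : f ∈ C.A) (hL' : C.Γ b v - v = v' + f) (k k' : ℝ) :
    |I (P0 * C.Γ v u') - I (P0 * C.Γ u v')|
      ≤ a * (ℓ + ℓ') * B * L * L' * I w
        + a * (ℓ' + B) * L' / r * I (w * |e - k • 1|)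
        + a * (ℓ + B) * L / r * I (w * |f - k' • 1|) := by
  have uA := hC.test_A hu
  have vA := hC.test_A hv
  have r0 := hW.r0
  have a0 := hW.a0
  have h0 := rad_b hC hB hb.1 hP hu hv
  have h1 := est_M hC hb.1 hP hv he hW hV k
  have h2 := est_M hC hb.1 hP hu hf hW hU k'
  have e1 : I (P0 * C.Γ v (C.Γ b u - u)) = I (P0 * C.Γ v u') + I (P0 * C.Γ v e) := by
    rw [hL, hC.Γ_add_right vA.1 hu'.1 he.1, mul_add,
      I_add (mem_mul_top hP.mem0.2 (hC.Γ_mem1 vA.1 hu'.1))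
        (mem_mul_top hP.mem0.2 (hC.Γ_mem1 vA.1 he.1))]
  have e2 : I (P0 * C.Γ u (C.Γ b v - v)) = I (P0 * C.Γ u v') + I (P0 * C.Γ u f) := by
    rw [hL', hC.Γ_add_right uA.1 hv'.1 hf.1, mul_add,
      I_add (mem_mul_top hP.mem0.2 (hC.Γ_mem1 uA.1 hv'.1))
        (mem_mul_top hP.mem0.2 (hC.Γ_mem1 uA.1 hf.1))]
  rw [e1, e2] at h0
  have t : ∀ {y z : M →ₘ[m] ℝ} {Ly Lz ly lz cy cz : ℝ}, UB C b y P0 P1 P2 r Ly B ly cy →
      UB C b z P0 P1 P2 r Lz B lz cz →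
      |I (P0 * (C.Γ b y * C.lap z))| ≤ a * lz * B * Ly * Lz * I w := by
    intro y z Ly Lz ly lz cy cz hy hz
    refine I_dom1 hW.w1 ?_
    filter_upwards [mul_ae P0 (C.Γ b y * C.lap z), mul_ae (C.Γ b y) (C.lap z), hW.p0, hW.w0,
      hy.rad, hz.lap] with x g1 g2 g3 g4 g5 g6
    rw [g1, g2, abs_mul, abs_mul]
    have Ly0 := hy.L0
    have Lz0 := hz.L0
    have B0 := hy.B0
    have lz0 := hz.l0
    by_cases hx : P0 x = 0
    · rw [hx, abs_zero, zero_mul]; positivity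
    · have g5' := g5 (Or.inl hx)
      have g6' := g6 (Or.inl hx)
      calc |P0 x| * (|C.Γ b y x| * |C.lap z x|)
          ≤ (a * w x) * ((Ly * B * r) * (lz * Lz / r)) := by gcongr
        _ = a * lz * B * Ly * Lz * w x := by field_simp
  have t1 := t hU hV
  have t2 := t hV hU
  have e3 : I (P0 * C.Γ v u') - I (P0 * C.Γ u v')
      = -I (P0 * (C.Γ b u * C.lap v)) + I (P0 * (C.Γ b v * C.lap u))
        - I (P0 * C.Γ v e) + I (P0 * C.Γ u f) := by linarith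
  rw [e3]
  set A1 := I (P0 * (C.Γ b u * C.lap v))
  set A2 := I (P0 * (C.Γ b v * C.lap u))
  set A3 := I (P0 * C.Γ v e)
  set A4 := I (P0 * C.Γ u f)
  have s1 := abs_add_le (-A1 + A2 - A3) A4
  have s2 := abs_sub (-A1 + A2) A3
  have s3 := abs_add_le (-A1) A2
  rw [abs_neg] at s3
  have e4 : a * (ℓ + ℓ') * B * L * L' * I w
      = a * ℓ' * B * L * L' * I w + a * ℓ * B * L' * L * I w := by ring
  rw [e4]
  linarith

end est

end Vale.Agent.P242.H363
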