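import Vale.Agent.P242.H363.KW3
import Vale.Agent.P242.H751.Cmp
import Vale.Agent.P242.H937.VocW
import Vale.Agent.P242.H771.Sub
import Vale.Agent.P242.H703.HfL
import Vale.Agent.P242.H744.NuD

/-! P242, package A-RAD, file SBK: the fields (K), (Pnn), (Ple) in the form of `H771/Sub.lean`, for
the explicit weights `X0 t = t Ξ(b'/t)`. -/

set_option linter.all false

open MeasureTheory Filter Topology Set Metric
open scoped ENNReal NNReal InnerProductSpace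

universe u

namespace Vale.Agent.P242.H363

open Vale.Agent.P233 Vale.Agent.P233.RA Vale.Agent.P242.H990 Vale.Agent.P242.H520
open Vale.Agent.P242.H71 Vale.Agent.P242.H655 Vale.Agent.P242.H771
open Vale.Agent.P242.H937 (Base Sc Sf wt cL cB)
open Vale.Agent.P242.H852 (tl ws)

variable {M : Type u} [MetricSpace M] [CompleteSpace M] [SecondCountableTopology M]
  [MeasurableSpace M] [BorelSpace M] {m : Measure M} {n : ℕ} {K : ℝ} {p : ℝ → M → M → ℝ}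
  {o : M} {A : ℝ}

/-- `X_t = t Ξ(b'/t)` -/
noncomputable def X0t (m : Measure M) (n : ℕ) (p : ℝ → M → M → ℝ) (y : M) (t : ℝ) : M →ₘ[m] ℝ :=
  t • wt m n p Xi y t

/-- the quadratic quantity `P_t(f) = t^{-n/2} NN(f,f)(X_t)` -/
theorem PJ_eq (m : Measure M) (n : ℕ) (K : ℝ) (p : ℝ → M → M → ℝ) (y : M) {r : ℝ} (hr : 0 < r)
    (f : M →ₘ[m] ℝ) :
    PJ m n K p Xi y r f = (sob m).NN (-|K|) f f (X0t m n p y (r ^ 2)) / √(r ^ 2) ^ n := by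
  unfold PJ X0t
  rw [Real.sqrt_sq hr.le, div_eq_inv_mul]

/-- common thresholds -/
theorem sb_thr {M' A₀ η r₀ ρ A Λ : ℝ} {n : ℕ} (hρ : 0 < ρ) (hM : 1 ≤ M') (hM2 : 2 * A ^ 2 * Λ ^ 2 ≤ M')
    (hA₀ : 0 < A₀)
    (h1 : ρ / M' ≤ r₀) (h2 : r₀ ≤ ρ / √M')
    (hη0 : 0 ≤ η) (hη : η ≤ A₀ * ((M' ^ 2)⁻¹) ^ (1 / 4 : ℝ) / (2 * M' ^ n)) :
    0 < r₀ ∧ r₀ ≤ ρ ∧ 2 * A ^ 2 * Λ ^ 2 * r₀ ^ 2 ≤ ρ ^ 2 ∧
      2 * (ρ / r₀) ^ n * η ≤ A₀ * (tl r₀ Λ 0 / ρ ^ 2) ^ (1 / 4 : ℝ) := by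
  have hM0 : 0 < M' := by linarith
  have hr : 0 < r₀ := lt_of_lt_of_le (by positivity) h1
  have hsM : 1 ≤ √M' := by
    rw [show (1 : ℝ) = √1 by simp]
    exact Real.sqrt_le_sqrt hM
  have hrρ : r₀ ≤ ρ := h2.trans (div_le_self hρ.le hsM)
  have hr2 : r₀ ^ 2 * M' ≤ ρ ^ 2 := by
    have : r₀ ^ 2 ≤ (ρ / √M') ^ 2 := by gcongr
    rw [div_pow, Real.sq_sqrt hM0.le, le_div_iff₀ hM0] at this
    exact this
  refine ⟨hr, hrρ, ?_, ?_⟩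
  · calc 2 * A ^ 2 * Λ ^ 2 * r₀ ^ 2 ≤ M' * r₀ ^ 2 := by gcongr
      _ = r₀ ^ 2 * M' := by ring
      _ ≤ ρ ^ 2 := hr2
  · have e1 : ρ / r₀ ≤ M' := by
      rw [div_le_iff₀ hr]
      rw [div_le_iff₀ hM0] at h1
      linarith
    have e2 : (M' ^ 2)⁻¹ ≤ tl r₀ Λ 0 / ρ ^ 2 := by
      have : tl r₀ Λ 0 = r₀ ^ 2 := by
        show (r₀ / Λ ^ 0) ^ 2 = r₀ ^ 2
        rw [pow_zero, div_one]
      rw [this, ← div_pow, ← inv_pow]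
      have : M'⁻¹ ≤ r₀ / ρ := by
        rw [le_div_iff₀ hρ, inv_mul_eq_div]
        exact h1
      gcongr
    have e3 : 0 ≤ tl r₀ Λ 0 / ρ ^ 2 := le_trans (by positivity) e2
    have e4 : (ρ / r₀) ^ n ≤ M' ^ n := by
      have : 0 ≤ ρ / r₀ := by positivity
      gcongr
    rw [le_div_iff₀ (by positivity)] at hη
    calc 2 * (ρ / r₀) ^ n * η ≤ 2 * M' ^ n * η := by gcongr
      _ = η * (2 * M' ^ n) := by ring
      _ ≤ A₀ * ((M' ^ 2)⁻¹) ^ (1 / 4 : ℝ) := hη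
      _ ≤ A₀ * (tl r₀ Λ 0 / ρ ^ 2) ^ (1 / 4 : ℝ) := by gcongr

/-- (K), in the form of `SB_W` -/
theorem sb_K (h : Env m n K o A p) :
    Sub m n K o p fun Q R Λ B A₀ M' ε η δ ρ u uu => ∀ y ∈ ball o (R / 4 * ρ),
      ∀ r₀, ρ / M' ≤ r₀ → r₀ ≤ ρ / √M' → ∀ (j : ℕ) (v : E n) (s : ℝ), tl r₀ Λ (j + 1) ≤ s →
        s ≤ tl r₀ Λ j → tl r₀ Λ (j + 1) * gm m K p u s y v v ≤
          B * (ws (Λ ^ (-(1 / 2) : ℝ) / 2) (fun i =>
              (sob m).NN (-|K|) (uc u v) (uc u v) (X0t m n p y (tl r₀ Λ i)) /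
                √(tl r₀ Λ i) ^ n) (j + 1) +
            A₀ * (tl r₀ Λ 0 / ρ ^ 2) ^ (1 / 8 : ℝ) * (Λ ^ (-(1 / 2) : ℝ) / 2) ^ (j + 1) *
              Gm m p u (tl r₀ Λ (j + 1)) y v v) := by
  obtain ⟨Cm, H⟩ := Base.ofEnv h
  have hA1 := h.kb.one_le
  obtain ⟨ε₁, hε₁, hcmp⟩ := H751.cmpX h (L := 1) le_rfl
  obtain ⟨t₀, hSc⟩ := Sc.ex n K (Cm := Cm) (a := 2) H.one (by norm_num)
  refine (EvO.thr (4 * A ^ 2 * 1) (fun _ => 1) (fun _ _ => 16)).mono fun Q R Λ hthr => ?_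
  obtain ⟨⟨hQ1, hQ⟩, ⟨hR1, -⟩, ⟨hΛ, -⟩⟩ := hthr
  have hΛ1 : 1 < Λ := by linarith
  obtain ⟨CL, hCL, hK⟩ := K_field.{u} n (A := A) (Λ := Λ) (R₁ := 1) (ξ := Xi 1) hA1 hΛ1 Xi_one_pos
    zero_le_one
  refine ⟨CL, hCL, (EvI.thr hε₁ (fun _ => 2 * A ^ 2 * Λ ^ 2)
    (c := fun A₀ M' => min ε₁ (min (√t₀) (A₀ * ((M' ^ 2)⁻¹) ^ (1 / 4 : ℝ) / (2 * M' ^ n))))
    (fun A₀ M' h0 h1 => ?_)).mono fun A₀ M' ε η δ ρ ht u uu hu hD hT y hy r₀ hr1 hr2 => ?_⟩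
  · have : 0 < √t₀ := Real.sqrt_pos.2 hSc.pos
    have : 0 < M' := by linarith
    have : 0 < A₀ * ((M' ^ 2)⁻¹) ^ (1 / 4 : ℝ) / (2 * M' ^ n) := by positivity
    exact lt_min hε₁ (lt_min ‹_› this)
  obtain ⟨⟨hA0, -⟩, ⟨hM1, hM⟩, ⟨hε0, hε⟩, ⟨hη0, hη⟩, -, hρ1⟩ := ht
  have hρ := hu.ρ_pos
  obtain ⟨hr0, hrρ, hs1, hs2⟩ := sb_thr (Λ := Λ) (n := n) hρ hM1 hM hA0 hr1 hr2 hη0.le
    (hη.trans ((min_le_right _ _).trans (min_le_right _ _)))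
  have hη1 : η ≤ ε₁ := hη.trans (min_le_left _ _)
  have hρt : ρ ≤ √t₀ := hρ1.trans ((min_le_right _ _).trans (min_le_left _ _))
  have hScr : Sc n K Cm 2 (r₀ ^ 2) := by
    refine hSc.le H.one (by positivity) ?_
    calc r₀ ^ 2 ≤ ρ ^ 2 := by gcongr
      _ ≤ √t₀ ^ 2 := by gcongr
      _ = t₀ := Real.sq_sqrt hSc.pos.le
  have hyR : y ∈ ball o (R * ρ) := by
    rw [mem_ball] at hy ⊢
    have : 0 < R * ρ := by positivity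
    linarith
  have hyR2 : y ∈ ball o (R / 2 * ρ) := by
    rw [mem_ball] at hy ⊢
    have : 0 < R * ρ := by positivity
    linarith
  have hy1 : dist y o ≤ 1 := by
    have := hu.Rρ
    rw [mem_ball] at hyR
    linarith
  have hρ2 : ρ ^ 2 ≤ Q * ρ ^ 2 := le_mul_of_one_le_left (by positivity) hQ1
  have tpos : ∀ i, 0 < tl r₀ Λ i := fun i => by
    show 0 < (r₀ / Λ ^ i) ^ 2
    positivity
  have tle : ∀ i, tl r₀ Λ i ≤ ρ ^ 2 := fun i => by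
    show (r₀ / Λ ^ i) ^ 2 ≤ ρ ^ 2
    have : r₀ / Λ ^ i ≤ r₀ := div_le_self hr0.le (one_le_pow₀ hΛ1.le)
    have : 0 ≤ r₀ / Λ ^ i := by positivity
    gcongr
    linarith
  have hlow : ∀ j (c : E n), (tl r₀ Λ j / ρ ^ 2) ^ (1 / 8 : ℝ) * ‖c‖ ^ 2 ≤
      2 * Gm m p u (tl r₀ Λ j) y c c := fun j c =>
    (hcmp R Q ε η ρ u uu hQ hε0.le hε hη0.le hη1 hu y hyR (tl r₀ Λ j) (tpos j) (tle j)
      (H155.TTx_of_TT hT hyR2 (tpos j)) c).1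
  have key := hK H H937.Xi363_sf Xi_nonneg (fun x hx => Xi_ge (by linarith)) y hy1 r₀ ρ η A₀ hr0 hρ
    hScr hs1 (hρ2.trans hu.Qρ) hη0.le hA0.le hs2 u
    (fun c => H751.uc_test H.gamma hu c)
    (fun c => by
      refine hu.gam y hyR (ρ ^ 2) ?_ hρ2 c
      exact div_le_self (by positivity) hQ1) hlow
  intro j v s hs hs'
  have e : (fun i => PJ m n K p Xi y (r₀ / Λ ^ i) (uc u v)) = fun i =>
      (sob m).NN (-|K|) (uc u v) (uc u v) (X0t m n p y (tl r₀ Λ i)) / √(tl r₀ Λ i) ^ n := by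
    funext i
    exact PJ_eq m n K p y (by positivity) _
  have := key j v s hs hs'
  rw [e] at this
  exact this

/-- (Pnn), (Ple) -/
theorem sb_P (h : Env m n K o A p) :
    Sub m n K o p fun Q R Λ B A₀ M' ε η δ ρ u uu => ∀ y ∈ ball o (R / 4 * ρ),
      ∀ t, 0 < t → t ≤ ρ ^ 2 → ∀ v : E n,
        0 ≤ (sob m).NN (-|K|) (uc u v) (uc u v) (X0t m n p y t) / √t ^ n ∧
        (sob m).NN (-|K|) (uc u v) (uc u v) (X0t m n p y t) / √t ^ n ≤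
          B * nE m K p u Q A₀ ρ t y v ^ 2 := by
  obtain ⟨Cm, H⟩ := Base.ofEnv h
  have hA1 := h.kb.one_le
  obtain ⟨t₀, hSc⟩ := Sc.ex n K (Cm := Cm) (a := 2) H.one (by norm_num)
  obtain ⟨Bx, hBx1, hBx⟩ := H937.Xi363_sf.bdd (-(n : ℝ))
  have hcB : 0 < cB n A 1 (cL n Cm 2) 1 := H937.cB_pos hA1 one_pos
  set cc : ℝ := Bx * cB n A 1 (cL n Cm 2) 1 with hcc
  have hcc0 : 0 < cc := by positivity
  have hcH := H703.one_le_cH (n := n) hA1 (show (0 : ℝ) ≤ 1 by norm_num)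
  set c2 : ℝ := 2 * H703.cH n A 1 * 2 ^ ((n : ℝ) / 2) with hc2
  have hc20 : 0 < c2 := by positivity
  refine (EvO.thr (8 * A ^ 2) (fun _ => 1) (fun _ _ => 16)).mono fun Q R Λ hthr => ?_
  obtain ⟨⟨hQ1, hQ⟩, ⟨hR1, -⟩, ⟨hΛ, -⟩⟩ := hthr
  have hq0 : 0 < Q * (12 * n * H703.cH n A 1) + 1 := by positivity
  refine ⟨1 + cc * c2, by nlinarith [mul_pos hcc0 hc20], (EvI.thr (a := 1 / 8) (by norm_num)
    (fun _ => 1)
    (c := fun A₀ M' => min (√t₀) (A₀ / (Q * (12 * n * H703.cH n A 1) + 1)))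
    (fun A₀ M' h0 h1 => ?_)).mono fun A₀ M' ε η δ ρ ht u uu hu hD hT y hy t ht0 htρ v => ?_⟩
  · exact lt_min (Real.sqrt_pos.2 hSc.pos) (by positivity)
  obtain ⟨⟨hA0, hA08⟩, ⟨hM1, hM⟩, ⟨hε0, hε⟩, ⟨hη0, hη⟩, -, hρ1⟩ := ht
  have hρ := hu.ρ_pos
  have hρt : ρ ≤ √t₀ := hρ1.trans (min_le_left _ _)
  have hη2 : Q * (12 * n * H703.cH n A 1 * η) ≤ A₀ := by
    have h1 := hη.trans (min_le_right _ _)
    rw [le_div_iff₀ hq0] at h1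
    nlinarith
  have hyR : y ∈ ball o (R * ρ) := by
    rw [mem_ball] at hy ⊢
    have : 0 < R * ρ := by positivity
    linarith
  have hy1 : dist y o ≤ 1 := by
    have := hu.Rρ
    rw [mem_ball] at hyR
    linarith
  have hst : 0 < √t := Real.sqrt_pos.2 ht0
  have est : √t ^ 2 = t := Real.sq_sqrt ht0.le
  have hScr : Sc n K Cm 2 (√t ^ 2) := by
    rw [est]
    refine hSc.le H.one ht0 ?_
    calc t ≤ ρ ^ 2 := htρ
      _ ≤ √t₀ ^ 2 := by gcongr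
      _ = t₀ := Real.sq_sqrt hSc.pos.le
  have e := PJ_eq m n K p y hst (uc u v)
  rw [est] at e
  rw [← e]
  refine ⟨PJ_nonneg H H937.Xi363_sf Xi_nonneg y hst hScr (H751.uc_test H.gamma hu v), ?_⟩
  have h1 := PJ_le H H937.Xi363_sf hBx hy1 hst hScr (H751.uc_test H.gamma hu v)
  rw [est] at h1
  have hH := H703.hf_hyp h hu hη0.le (C₀ := 1) le_rfl hQ (le_refl R)
  have q : H703.HF.Par Q (12 * n * H703.cH n A 1 * η) A₀ (3 / 8) :=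
    ⟨by norm_num, by norm_num, hη2, hA08⟩
  have h2 := hH.gam_le_Nb q ht0 le_rfl le_rfl htρ hyR v
  have hρ2 : ρ ^ 2 ≤ Q * ρ ^ 2 := le_mul_of_one_le_left (by positivity) hQ1
  rw [H703.hf_gam h hu ht0, H703.hf_Nt h hu hη0.le hQ (by norm_num) ht0 (htρ.trans hρ2) hyR,
    mul_div_assoc, div_self ht0.ne', mul_one] at h2
  have h3 : 0 ≤ Dt m n K p Q A₀ ρ t y := H744.dt_nonneg h hA0.le ht0 (htρ.trans hρ2) y
  have h4 : 0 ≤ Gm m p u t y v v := H703.Gm_nonneg h hu ht0 y v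
  have h6 : 0 ≤ Nt m K p u Q A₀ ρ (3 / 8) t y v v := by
    have := hH.Nb_nonneg q ht0 (htρ.trans hρ2) hyR v
    rwa [H703.hf_Nt h hu hη0.le hQ (by norm_num) ht0 (htρ.trans hρ2) hyR] at this
  have h7 := mul_nonneg h3 h4
  have h5 : nE m K p u Q A₀ ρ t y v ^ 2 = Nt m K p u Q A₀ ρ (3 / 8) t y v v +
      Dt m n K p Q A₀ ρ t y * Gm m p u t y v v := by
    unfold H771.nE
    exact Real.sq_sqrt (add_nonneg h6 h7)
  rw [h5]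
  have h8 : t * H71.gam m K p t y (uc u v) (uc u v) ≤
      c2 * Nt m K p u Q A₀ ρ (3 / 8) t y v v := h2
  calc PJ m n K p Xi y √t (uc u v) ≤ cc * (t * H71.gam m K p t y (uc u v) (uc u v)) := h1
    _ ≤ cc * (c2 * Nt m K p u Q A₀ ρ (3 / 8) t y v v) := by gcongr
    _ = cc * c2 * Nt m K p u Q A₀ ρ (3 / 8) t y v v := by ring
    _ ≤ (1 + cc * c2) * (Nt m K p u Q A₀ ρ (3 / 8) t y v v +
        Dt m n K p Q A₀ ρ t y * Gm m p u t y v v) := by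
      have := mul_pos hcc0 hc20
      nlinarith

end Vale.Agent.P242.H363
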